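import Vale.Agent.P097.H531.CD.Basic
import Vale.Agent.P097.H128.NZ.TC

/-!
# P097 / case [d]: Row Y1 (logarithmic convexity of the tubes)
-/

set_option linter.all false

open Complex Metric Filter Topology Set
open scoped ComplexConjugate

namespace Vale.Agent.P097.H710

open Vale.Agent.P097 Vale.Agent.P097.TA Vale.Agent.P097.H202 Vale.Agent.P097.SC
open Vale.Agent.P097.CD Vale.Agent.P097.H456.Fct Vale.Agent.P097.NZ
open Complex.HadamardThreeLines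

theorem im_c {c ζ : ℂ} (hc : c = I ∨ c = -I) : |(c * ζ).im| = |ζ.re| := by
  rcases hc with rfl | rfl <;> simp

/-- three lines on one side -/
theorem three_side {v : ℂ → ℂ} {Y y₁ y₂ a b : ℝ} (hy : 0 < y₁) (h12 : y₁ < y₂) (h2Y : y₂ < Y)
    (hd : DifferentiableOn ℂ v (Str Y)) (hb : ∀ z : ℂ, |z.im| ≤ y₂ → ‖v z‖ ≤ b)
    (ha : ∀ z : ℂ, |z.im| ≤ y₁ → ‖v z‖ ≤ a) {c : ℂ} (hc : c = I ∨ c = -I) {ζ : ℂ}
    (hz1 : y₁ ≤ ζ.re) (hz2 : ζ.re ≤ y₂) :
    ‖v (c * ζ)‖ ≤ a ^ (1 - (ζ.re - y₁) / (y₂ - y₁)) * b ^ ((ζ.re - y₁) / (y₂ - y₁)) := by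
  have hsub : ∀ x : ℂ, x.re ∈ Icc y₁ y₂ → |(c * x).im| ≤ y₂ := by
    intro x hx
    rw [im_c hc, abs_of_nonneg (by linarith [hx.1])]
    exact hx.2
  have hcl : DifferentiableOn ℂ (fun ζ : ℂ => v (c * ζ)) (closure (verticalStrip y₁ y₂)) := by
    have e : closure (verticalStrip y₁ y₂) = re ⁻¹' Icc y₁ y₂ := by
      rw [verticalStrip, closure_preimage_re, closure_Ioo h12.ne]
    rw [e]
    intro x hx
    have h1 : c * x ∈ Str Y := (hsub x hx).trans_lt h2Y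
    have h2 : DifferentiableAt ℂ v (c * x) := hd.differentiableAt ((isOpen_Str Y).mem_nhds h1)
    have h3 : DifferentiableAt ℂ (fun ζ : ℂ => c * ζ) x := by fun_prop
    exact (h2.comp x h3).differentiableWithinAt
  refine norm_le_interp_of_mem_verticalClosedStrip' (f := fun ζ : ℂ => v (c * ζ)) (z := ζ) h12
    ⟨hz1, hz2⟩ hcl.diffContOnCl ?_ ?_ ?_
  · refine ⟨b, ?_⟩
    rintro _ ⟨x, hx, rfl⟩
    exact hb _ (hsub x hx)
  · intro x hx
    apply ha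
    rw [im_c hc]
    have : x.re = y₁ := hx
    rw [this, abs_of_pos hy]
  · intro x hx
    apply hb
    have : x.re = y₂ := hx
    exact hsub x ⟨by rw [this]; exact h12.le, this.le⟩

/-- the interpolated bound of the coefficients -/
theorem coef_interp {v : ℂ → ℂ} {Y y₁ y₂ M R₁ R₂ m y : ℝ} {k : ℕ} (hy : 0 < y₁) (h12 : y₁ < y₂)
    (h2Y : y₂ < Y) (hM : 0 < M) (hR₁ : 0 < R₁) (hR₂ : 0 < R₂) (hRR : R₂ ≤ R₁)
    (hd : DifferentiableOn ℂ v (Str Y)) (hb : ∀ z : ℂ, |z.im| ≤ y₂ → ‖v z‖ ≤ M / R₂ ^ k)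
    (ha : ∀ z : ℂ, |z.im| ≤ y₁ → ‖v z‖ ≤ M / R₁ ^ k) (hm0 : 0 ≤ m) (hm1 : m ≤ 1)
    (hym : y ≤ (1 - m) * y₁ + m * y₂) {z : ℂ} (hz : |z.im| ≤ y) :
    ‖v z‖ ≤ M / (Real.exp ((1 - m) * Real.log R₁ + m * Real.log R₂)) ^ k := by
  have hlog : Real.log R₂ ≤ Real.log R₁ := Real.log_le_log hR₂ hRR
  have hfrac : ∀ {R : ℝ}, 0 < R → M / R ^ k = Real.exp (Real.log M - k * Real.log R) := by
    intro R hR
    rw [Real.exp_sub, Real.exp_log hM, ← Real.log_pow, Real.exp_log (by positivity)]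
  rcases le_or_gt |z.im| y₁ with h | h
  · refine (ha z h).trans ?_
    rw [hfrac hR₁, hfrac (Real.exp_pos _), Real.log_exp]
    apply Real.exp_le_exp.2
    have h1 : (1 - m) * Real.log R₁ + m * Real.log R₂ ≤ Real.log R₁ := by nlinarith
    have h2 : (0 : ℝ) ≤ k := Nat.cast_nonneg k
    nlinarith
  · have hz2 : |z.im| ≤ y₂ := by nlinarith
    have key : ‖v z‖ ≤ (M / R₁ ^ k) ^ (1 - (|z.im| - y₁) / (y₂ - y₁)) *
        (M / R₂ ^ k) ^ ((|z.im| - y₁) / (y₂ - y₁)) := by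
      rcases le_total 0 z.im with h0 | h0
      · rw [abs_of_nonneg h0] at h hz2 ⊢
        have e1 : I * (-I * z) = z := by rw [← mul_assoc, mul_neg, I_mul_I, neg_neg, one_mul]
        have e2 : (-I * z).re = z.im := by simp
        have := three_side hy h12 h2Y hd hb ha (Or.inl rfl) (ζ := -I * z) (by rw [e2]; exact h.le)
          (by rw [e2]; exact hz2)
        rwa [e1, e2] at this
      · rw [abs_of_nonpos h0] at h hz2 ⊢
        have e1 : -I * (I * z) = z := by rw [← mul_assoc, neg_mul, I_mul_I, neg_neg, one_mul]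
        have e2 : (I * z).re = -z.im := by simp
        have := three_side hy h12 h2Y hd hb ha (Or.inr rfl) (ζ := I * z) (by rw [e2]; exact h.le)
          (by rw [e2]; exact hz2)
        rwa [e1, e2] at this
    refine key.trans ?_
    set s := (|z.im| - y₁) / (y₂ - y₁) with hs
    have hs0 : 0 ≤ s := div_nonneg (by linarith) (by linarith)
    have hsm : s ≤ m := by
      rw [hs, div_le_iff₀ (by linarith)]
      nlinarith
    rw [hfrac hR₁, hfrac hR₂, hfrac (Real.exp_pos _), Real.log_exp, ← Real.exp_mul, ← Real.exp_mul,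
      ← Real.exp_add]
    apply Real.exp_le_exp.2
    have h2 : (0 : ℝ) ≤ k := Nat.cast_nonneg k
    have h3 : (1 - m) * Real.log R₁ + m * Real.log R₂ ≤
        (1 - s) * Real.log R₁ + s * Real.log R₂ := by nlinarith
    have h4 := mul_le_mul_of_nonneg_left h3 h2
    nlinarith

/-- the sum of a series with geometrically bounded coefficients on a tube -/
theorem sm_tube {u : ℕ → ℂ → ℂ} {y ρ R M : ℝ} (hρ : 0 < ρ) (hρR : ρ < R) (hM : 0 ≤ M)
    (hu : ∀ z : ℂ, |z.im| < y → ∀ k, ‖u k z‖ ≤ M / R ^ k)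
    (hd : ∀ k, DifferentiableOn ℂ (u k) (Str y)) : AnalyticOnNhd ℂ (Sm u) (Tb y ρ) := by
  have hR : 0 < R := hρ.trans hρR
  have hx0 : 0 ≤ ρ / R := by positivity
  have hx1 : ρ / R < 1 := (div_lt_one hR).2 hρR
  have hterm : ∀ p ∈ Tb y ρ, ∀ k, ‖u k p.1 * p.2 ^ k‖ ≤ M * (ρ / R) ^ k := by
    intro p hp k
    rw [norm_mul, norm_pow]
    calc ‖u k p.1‖ * ‖p.2‖ ^ k ≤ M / R ^ k * ρ ^ k :=
          mul_le_mul (hu p.1 hp.1 k) (pow_le_pow_left₀ (norm_nonneg _) hp.2.le k) (by positivity)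
            (by positivity)
      _ = M * (ρ / R) ^ k := by rw [div_pow]; ring
  have hsum : Summable (fun k : ℕ => M * (ρ / R) ^ k) :=
    (summable_geometric_of_lt_one hx0 hx1).mul_left M
  set B := ∑' k : ℕ, M * (ρ / R) ^ k with hB
  have hB0 : 0 ≤ B := tsum_nonneg fun k => by positivity
  have hdiff : DifferentiableOn ℂ (Sm u) (Tb y ρ) := by
    intro p hp
    apply DifferentiableAt.differentiableWithinAt
    obtain ⟨s, hs, hsub⟩ := Metric.isOpen_iff.1 (isOpen_Tb y ρ) p hp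
    refine H133.lim_diff (𝒰 := hyperfilter ℕ)
      (F := fun n q => ∑ k ∈ Finset.range n, u k q.1 * q.2 ^ k) (M := B + 1) hs
      (by positivity) ?_ ?_
    · refine Filter.Eventually.of_forall fun n => ⟨?_, ?_⟩
      · refine DifferentiableOn.fun_sum fun k _ => ?_
        refine DifferentiableOn.mul ?_ (by fun_prop)
        exact (hd k).comp differentiable_fst.differentiableOn fun q hq => (hsub hq).1
      · intro q hq
        have h1 := hsub hq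
        have h2 : ‖∑ k ∈ Finset.range n, u k q.1 * q.2 ^ k‖ ≤ B := by
          calc ‖∑ k ∈ Finset.range n, u k q.1 * q.2 ^ k‖ ≤
              ∑ k ∈ Finset.range n, ‖u k q.1 * q.2 ^ k‖ := norm_sum_le _ _
            _ ≤ ∑ k ∈ Finset.range n, M * (ρ / R) ^ k :=
              Finset.sum_le_sum fun k _ => hterm q h1 k
            _ ≤ B := hsum.sum_le_tsum _ fun k _ => by positivity
        linarith
    · intro q hq
      have h1 := hsub hq
      have h2 : Summable (fun k => u k q.1 * q.2 ^ k) :=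
        Summable.of_norm_bounded hsum (hterm q h1)
      have := h2.hasSum.tendsto_sum_nat
      refine this.mono_left ?_
      rw [← Nat.cofinite_eq_atTop]
      exact hyperfilter_le_cofinite
  intro p hp
  exact Hol.analyticAt_of_differentiableOn (isOpen_Tb y ρ) hdiff hp

/-- Cauchy estimates of the coefficients of a periodic function -/
theorem tc_tube {f : ℂ × ℂ → ℂ} {y ρ y' ρ' : ℝ} (hf : AnalyticOnNhd ℂ f (Tb y ρ))
    (hper : ∀ t w : ℂ, (t, w) ∈ Tb y ρ → f (t + 1, w) = f (t, w)) (hy' : 0 < y') (hyy : y' < y)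
    (hρ' : 0 < ρ') (hρρ : ρ' < ρ) :
    ∃ M > 0, ∀ t : ℂ, |t.im| ≤ y' → ∀ k, ‖tc f k t‖ ≤ M / ρ' ^ k := by
  -- compactness
  set K : Set (ℂ × ℂ) := (Icc (0 : ℝ) 1 ×ℂ Icc (-y') y') ×ˢ closedBall (0 : ℂ) ρ' with hK
  have hKc : IsCompact K := (isCompact_Icc.reProdIm isCompact_Icc).prod (isCompact_closedBall _ _)
  have hKs : K ⊆ Tb y ρ := by
    rintro ⟨t, w⟩ ⟨h1, h2⟩
    rw [mem_reProdIm] at h1
    refine ⟨(abs_le.2 h1.2).trans_lt hyy, ?_⟩
    rw [mem_closedBall_zero_iff] at h2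
    exact h2.trans_lt hρρ
  obtain ⟨M, hM⟩ := hKc.exists_bound_of_continuousOn (hf.continuousOn.mono hKs)
  have hper' : ∀ (n : ℤ) (t w : ℂ), (t, w) ∈ Tb y ρ → f (t + n, w) = f (t, w) := by
    intro n
    induction n using Int.induction_on with
    | zero => intro t w h; simp
    | succ n ih =>
      intro t w h
      have h1 : (t + n, w) ∈ Tb y ρ := ⟨by simpa using h.1, h.2⟩
      have e : t + ((n + 1 : ℤ) : ℂ) = t + n + 1 := by push_cast; ring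
      rw [e, hper _ _ h1]
      have := ih t w h
      simpa using this
    | pred n ih =>
      intro t w h
      have h1 : (t + (-n - 1), w) ∈ Tb y ρ := ⟨by simpa using h.1, h.2⟩
      have e : t + ((-n - 1 : ℤ) : ℂ) = t + (-n - 1) := by push_cast; ring
      have e2 : t + (-n - 1) + 1 = t + ((-n : ℤ) : ℂ) := by push_cast; ring
      rw [e, ← hper _ _ h1, e2]
      exact ih t w h
  refine ⟨max M 1, by positivity, fun t ht k => ?_⟩
  have hb : ∀ w : ℂ, ‖w‖ ≤ ρ' → ‖f (t, w)‖ ≤ max M 1 := by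
    intro w hw
    have h1 : (t, w) ∈ Tb y ρ := ⟨ht.trans_lt hyy, hw.trans_lt hρρ⟩
    have h2 := hper' (-⌊t.re⌋) t w h1
    rw [← h2]
    refine (hM _ ⟨?_, ?_⟩).trans (le_max_left _ _)
    · rw [mem_reProdIm]
      refine ⟨⟨?_, ?_⟩, ?_⟩
      · simp
        exact Int.floor_le t.re
      · simp
        have := (Int.lt_floor_add_one t.re).le
        linarith
      · simpa using abs_le.1 ht
    · simpa using hw
  have hd : DiffContOnCl ℂ (fun w => f (t, w)) (ball 0 ρ') := by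
    apply DifferentiableOn.diffContOnCl
    rw [closure_ball _ hρ'.ne']
    intro w hw
    rw [mem_closedBall_zero_iff] at hw
    have h1 : (t, w) ∈ Tb y ρ := ⟨ht.trans_lt hyy, hw.trans_lt hρρ⟩
    exact (analyticAt_pair2 (hf _ h1)).differentiableAt.differentiableWithinAt
  have h3 := Complex.norm_iteratedDeriv_le_of_forall_mem_sphere_norm_le k hρ' hd
    (C := max M 1) (fun w hw => hb w (by rw [mem_sphere_zero_iff_norm] at hw; exact hw.le))
  rw [tc, norm_div, Complex.norm_natCast]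
  have hk : (0 : ℝ) < k.factorial := by exact_mod_cast k.factorial_pos
  rw [div_le_iff₀ hk]
  refine h3.trans (le_of_eq ?_)
  ring

/-- interpolation of one function -/
theorem interp {f₁ f₂ : ℂ × ℂ → ℂ} {y₁ ρ₁ y₂ ρ₂ m y ρ : ℝ} (hy₁ : 0 < y₁) (hρ₁ : 0 < ρ₁)
    (hy₂ : y₁ < y₂) (hρ₂ : 0 < ρ₂) (hρρ : ρ₂ < ρ₁) (h1 : AnalyticOnNhd ℂ f₁ (Tb y₁ ρ₁))
    (h2 : AnalyticOnNhd ℂ f₂ (Tb y₂ ρ₂))
    (p1 : ∀ t w : ℂ, (t, w) ∈ Tb y₁ ρ₁ → f₁ (t + 1, w) = f₁ (t, w))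
    (p2 : ∀ t w : ℂ, (t, w) ∈ Tb y₂ ρ₂ → f₂ (t + 1, w) = f₂ (t, w))
    (he : EqOn f₁ f₂ (Tb y₁ ρ₂)) (hm0 : 0 ≤ m) (hm1 : m ≤ 1) (hy : 0 < y)
    (hym : y < (1 - m) * y₁ + m * y₂) (hρ : 0 < ρ)
    (hρm : Real.log ρ < (1 - m) * Real.log ρ₁ + m * Real.log ρ₂) :
    ∃ G : ℂ × ℂ → ℂ, AnalyticOnNhd ℂ G (Tb y ρ) ∧
      ∀ t : ℝ, ∀ᶠ u in 𝓝 ((t : ℂ), (0 : ℂ)), G u = f₂ u := by
  -- a small loss
  obtain ⟨δ, hδ0, hδ1, hδ2, hδ3⟩ : ∃ δ > 0, δ < y₁ ∧ y + δ < (1 - m) * y₁ + m * y₂ ∧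
      Real.log ρ + δ < (1 - m) * Real.log ρ₁ + m * Real.log ρ₂ := by
    refine ⟨min (y₁ / 2) (min (((1 - m) * y₁ + m * y₂ - y) / 2)
      (((1 - m) * Real.log ρ₁ + m * Real.log ρ₂ - Real.log ρ) / 2)), ?_, ?_, ?_, ?_⟩
    · exact lt_min (by positivity) (lt_min (by linarith) (by linarith))
    · exact (min_le_left _ _).trans_lt (by linarith)
    · have := (min_le_right (y₁ / 2) (min (((1 - m) * y₁ + m * y₂ - y) / 2)
        (((1 - m) * Real.log ρ₁ + m * Real.log ρ₂ - Real.log ρ) / 2))).trans (min_le_left _ _)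
      linarith
    · have := (min_le_right (y₁ / 2) (min (((1 - m) * y₁ + m * y₂ - y) / 2)
        (((1 - m) * Real.log ρ₁ + m * Real.log ρ₂ - Real.log ρ) / 2))).trans (min_le_right _ _)
      linarith
  set R₁ := Real.exp (Real.log ρ₁ - δ) with hR₁
  set R₂ := Real.exp (Real.log ρ₂ - δ) with hR₂
  have hR₁0 : 0 < R₁ := Real.exp_pos _
  have hR₂0 : 0 < R₂ := Real.exp_pos _
  have hR₁ρ : R₁ < ρ₁ := by
    rw [← Real.log_lt_log_iff hR₁0 hρ₁, hR₁, Real.log_exp]; linarith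
  have hR₂ρ : R₂ < ρ₂ := by
    rw [← Real.log_lt_log_iff hR₂0 hρ₂, hR₂, Real.log_exp]; linarith
  have hRR : R₂ ≤ R₁ := by
    apply Real.exp_le_exp.2
    have := Real.log_lt_log hρ₂ hρρ
    linarith
  obtain ⟨M₁, hM₁, b1⟩ := tc_tube h1 p1 (y' := y₁ - δ) (ρ' := R₁) (by linarith) (by linarith)
    hR₁0 hR₁ρ
  obtain ⟨M₂, hM₂, b2⟩ := tc_tube h2 p2 (y' := y₂ - δ) (ρ' := R₂) (by linarith) (by linarith)
    hR₂0 hR₂ρ
  set M := max M₁ M₂ with hM
  have hM0 : 0 < M := lt_max_of_lt_left hM₁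
  -- the coefficients agree
  have hco : ∀ t : ℂ, |t.im| < y₁ → ∀ k, tc f₁ k t = tc f₂ k t := by
    intro t ht k
    have h3 : ∀ᶠ p in 𝓝 ((t, 0) : ℂ × ℂ), f₁ p = f₂ p := by
      filter_upwards [(isOpen_Tb y₁ ρ₂).mem_nhds (show ((t, 0) : ℂ × ℂ) ∈ Tb y₁ ρ₂ from
        ⟨ht, by simpa using hρ₂⟩)] with p hp using he hp
    exact (tc_congr h3).self_of_nhds k
  have hdk : ∀ k, DifferentiableOn ℂ (tc f₂ k) (Str y₂) := by
    intro k t ht
    have h3 : AnalyticAt ℂ f₂ (t, 0) := h2 _ ⟨ht, by simpa using hρ₂⟩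
    exact (analyticAt_tc h3 k).differentiableAt.differentiableWithinAt
  set R := Real.exp ((1 - m) * Real.log R₁ + m * Real.log R₂) with hR
  have hRρ : ρ < R := by
    rw [← Real.log_lt_log_iff hρ (Real.exp_pos _), Real.log_exp, hR₁, hR₂, Real.log_exp,
      Real.log_exp]
    linarith
  have hbd : ∀ z : ℂ, |z.im| < y → ∀ k, ‖tc f₂ k z‖ ≤ M / R ^ k := by
    intro z hz k
    refine coef_interp (y := y) (Y := y₂) (y₁ := y₁ - δ) (y₂ := y₂ - δ) (by linarith)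
      (by linarith) (by linarith) hM0 hR₁0 hR₂0 hRR (hdk k) ?_ ?_ hm0 hm1 (by linarith) hz.le
    · intro x hx
      refine (b2 x hx k).trans ?_
      exact div_le_div_of_nonneg_right (le_max_right _ _) (by positivity)
    · intro x hx
      rw [← hco x (hx.trans_lt (by linarith)) k]
      refine (b1 x hx k).trans ?_
      exact div_le_div_of_nonneg_right (le_max_left _ _) (by positivity)
  refine ⟨Sm (tc f₂), sm_tube hρ hRρ hM0.le hbd (fun k => (hdk k).mono ?_), ?_⟩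
  · apply Str_mono
    nlinarith
  · intro t
    have h3 : AnalyticAt ℂ f₂ ((t : ℂ), 0) := h2 _ (zero_mem_Tb (hy₁.trans hy₂) hρ₂ t)
    exact Sm_tc h3

theorem rowY1_aux {κ Λ : ℝ} {H Φ : ℂ → ℂ} {r e : ℝ} {α p : ℂ → ℂ → ℂ} {J : ℂ → ℂ}
    (L : Lines κ Λ H Φ r e α p J) {y₁ ρ₁ y₂ ρ₂ m y ρ : ℝ} (h1 : Ext α p y₁ ρ₁)
    (h2 : Ext α p y₂ ρ₂) (hm0 : 0 ≤ m) (hm1 : m ≤ 1) (hy : 0 < y)
    (hym : y < (1 - m) * y₁ + m * y₂) (hρ : 0 < ρ)
    (hρm : Real.log ρ < (1 - m) * Real.log ρ₁ + m * Real.log ρ₂) (h12 : y₁ ≤ y₂) :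
    Ext α p y ρ := by
  obtain ⟨A₁, P₁, T₁⟩ := h1
  obtain ⟨A₂, P₂, T₂⟩ := h2
  have hy₁ := T₁.y0
  have hy₂ := T₂.y0
  have hρ₁ := T₁.ρ0
  have hρ₂ := T₂.ρ0
  have hyy : y ≤ y₂ := by nlinarith
  rcases le_or_gt ρ₁ ρ₂ with hρρ | hρρ
  · -- restrict the second
    have hl := Real.log_le_log hρ₁ hρρ
    have hρle : ρ ≤ ρ₂ := by
      rw [← Real.log_le_log_iff hρ hρ₂]
      nlinarith
    exact ⟨A₂, P₂, T₂.mono hy hρ hyy hρle⟩
  have hl := Real.log_lt_log hρ₂ hρρ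
  have hρle : ρ ≤ ρ₁ := by
    rw [← Real.log_le_log_iff hρ hρ₁]
    nlinarith
  rcases eq_or_lt_of_le h12 with heq | hlt
  · refine ⟨A₁, P₁, T₁.mono hy hρ ?_ hρle⟩
    rw [heq]; exact hyy
  -- the functions `A - 2 π t` and `P`
  have hag := T₁.agree T₂
  rw [min_eq_left hlt.le, min_eq_right hρρ.le] at hag
  have hlin : ∀ {a b : ℝ}, AnalyticOnNhd ℂ (fun u : ℂ × ℂ => 2 * (Real.pi : ℂ) * u.1) (Tb a b) :=
    fun {a b} u _ => analyticAt_const.mul analyticAt_fst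
  obtain ⟨G, hG, hGe⟩ := interp (f₁ := fun u => A₁ u - 2 * (Real.pi : ℂ) * u.1)
    (f₂ := fun u => A₂ u - 2 * (Real.pi : ℂ) * u.1) hy₁ hρ₁ hlt hρ₂ hρρ (T₁.aA.sub hlin)
    (T₂.aA.sub hlin)
    (fun t w h => by
      show A₁ (t + 1, w) - 2 * (Real.pi : ℂ) * (t + 1) = A₁ (t, w) - 2 * (Real.pi : ℂ) * t
      rw [(T₁.per L t w h).1]; ring)
    (fun t w h => by
      show A₂ (t + 1, w) - 2 * (Real.pi : ℂ) * (t + 1) = A₂ (t, w) - 2 * (Real.pi : ℂ) * t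
      rw [(T₂.per L t w h).1]; ring)
    (fun u hu => by
      show A₁ u - 2 * (Real.pi : ℂ) * u.1 = A₂ u - 2 * (Real.pi : ℂ) * u.1
      rw [hag.1 hu]) hm0 hm1 hy hym hρ hρm
  obtain ⟨G', hG', hGe'⟩ := interp (f₁ := P₁) (f₂ := P₂) hy₁ hρ₁ hlt hρ₂ hρρ T₁.aP T₂.aP
    (fun t w h => (T₁.per L t w h).2) (fun t w h => (T₂.per L t w h).2) hag.2 hm0 hm1 hy hym hρ hρm
  refine ⟨fun u => G u + 2 * (Real.pi : ℂ) * u.1, G', hy, hρ, hG.add hlin, hG', fun t => ?_⟩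
  filter_upwards [hGe t, hGe' t, T₂.eq t] with u e1 e2 e3
  refine ⟨?_, ?_⟩
  · rw [e1, ← e3.1]; ring
  · rw [e2, ← e3.2]

/-- **Row Y1** -/
theorem rowY1 : RowY1 := by
  intro κ Λ H Φ r e α p J F q E y₁ ρ₁ y₂ ρ₂ m y ρ h1 h2 hm0 hm1 hy hym hρ hρm
  rcases le_total y₁ y₂ with h | h
  · exact rowY1_aux E.ctx.ln h1 h2 hm0 hm1 hy hym hρ hρm h
  · refine rowY1_aux E.ctx.ln h2 h1 (m := 1 - m) (by linarith) (by linarith) hy ?_ hρ ?_ h
    · linarith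
    · linarith

end Vale.Agent.P097.H710
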