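import Vale.Agent.P097.H531.CD.Defs

/-!
# P097 / case [d]: Row B (basic facts on the entire curve)
-/

set_option linter.all false

open Complex Metric Filter Topology Set
open scoped ComplexConjugate

namespace Vale.Agent.P097.H710

open Vale.Agent.P097 Vale.Agent.P097.TA Vale.Agent.P097.H202 Vale.Agent.P097.SC
open Vale.Agent.P097.CD Vale.Agent.P097.H456.Fct

theorem real_tendsto : Tendsto (fun x : ℝ => (x : ℂ)) (𝓝[≠] 0) (𝓝[≠] 0) := by
  refine tendsto_nhdsWithin_iff.2 ⟨?_, ?_⟩
  · have := Complex.continuous_ofReal.tendsto 0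
    rw [Complex.ofReal_zero] at this
    exact this.mono_left nhdsWithin_le_nhds
  · filter_upwards [self_mem_nhdsWithin] with x hx
    exact Complex.ofReal_ne_zero.2 hx

theorem freq_real {P : ℂ → Prop} (h : ∀ x : ℝ, P x) : ∃ᶠ z in 𝓝[≠] (0 : ℂ), P z :=
  real_tendsto.frequently (Eventually.of_forall (p := fun x : ℝ => P x) h).frequently

/-- identity theorem for entire functions -/
theorem ent_eq {f g : ℂ → ℂ} (hf : Differentiable ℂ f) (hg : Differentiable ℂ g)
    (h : ∀ x : ℝ, f x = g x) (z : ℂ) : f z = g z := by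
  have h1 : AnalyticOnNhd ℂ f univ := fun z _ => hf.analyticAt z
  have h2 : AnalyticOnNhd ℂ g univ := fun z _ => hg.analyticAt z
  exact congrFun (h1.eq_of_frequently_eq h2 (z₀ := 0) (freq_real h)) z

/-- identity theorem on strips -/
theorem str_eq {b : ℝ} (hb : 0 < b) {f g : ℂ → ℂ} (hf : DifferentiableOn ℂ f (Str b))
    (hg : DifferentiableOn ℂ g (Str b)) (h : ∀ x : ℝ, f x = g x) {z : ℂ} (hz : z ∈ Str b) :
    f z = g z := by
  have h1 : AnalyticOnNhd ℂ f (Str b) := hf.analyticOnNhd (isOpen_Str b)
  have h2 : AnalyticOnNhd ℂ g (Str b) := hg.analyticOnNhd (isOpen_Str b)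
  have h0 : (0 : ℂ) ∈ Str b := by
    have := real_mem_Str hb 0
    simpa using this
  exact h1.eqOn_of_preconnected_of_frequently_eq h2 (convex_Str b).isPreconnected h0
    (freq_real h) hz

/-- division by a function with simple zeros -/
theorem exists_quot {f g : ℂ → ℂ} (hf : Differentiable ℂ f) (hg : Differentiable ℂ g)
    (h : ∀ z, g z = 0 → f z = 0 ∧ deriv g z ≠ 0) :
    ∃ Q : ℂ → ℂ, Differentiable ℂ Q ∧ (∀ z, f z = Q z * g z) ∧
      ∀ z, Q z = if g z = 0 then deriv f z / deriv g z else f z / g z := by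
  refine ⟨fun z => if g z = 0 then deriv f z / deriv g z else f z / g z, ?_, ?_, fun z => rfl⟩
  · intro z
    by_cases hz : g z = 0
    · obtain ⟨h1, h2⟩ := h z hz
      have hd : DifferentiableAt ℂ (fun x => dslope f z x / dslope g z x) z := by
        have a1 : DifferentiableAt ℂ (dslope f z) z := by
          have : DifferentiableOn ℂ (dslope f z) univ :=
            (differentiableOn_dslope univ_mem).2 hf.differentiableOn
          exact this.differentiableAt univ_mem
        have a2 : DifferentiableAt ℂ (dslope g z) z := by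
          have : DifferentiableOn ℂ (dslope g z) univ :=
            (differentiableOn_dslope univ_mem).2 hg.differentiableOn
          exact this.differentiableAt univ_mem
        exact a1.div a2 (by rw [dslope_same]; exact h2)
      refine hd.congr_of_eventuallyEq ?_
      -- near `z` the zero of `g` is isolated
      have h3 : ∀ᶠ x in 𝓝 z, dslope g z x ≠ 0 := by
        have a2 : ContinuousAt (dslope g z) z := by
          have : DifferentiableOn ℂ (dslope g z) univ :=
            (differentiableOn_dslope univ_mem).2 hg.differentiableOn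
          exact (this.differentiableAt univ_mem).continuousAt
        exact a2.eventually_ne (by rw [dslope_same]; exact h2)
      filter_upwards [h3] with x hx
      by_cases hxz : x = z
      · rw [hxz, if_pos hz, dslope_same, dslope_same]
      · have e1 := sub_smul_dslope g z x
        have e2 := sub_smul_dslope f z x
        rw [hz, sub_zero, smul_eq_mul] at e1
        rw [h1, sub_zero, smul_eq_mul] at e2
        have h4 : x - z ≠ 0 := sub_ne_zero.2 hxz
        have h5 : g x ≠ 0 := by
          rw [← e1]; exact mul_ne_zero h4 hx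
        rw [if_neg h5, ← e1, ← e2]
        field_simp
    · have h3 : ∀ᶠ x in 𝓝 z, g x ≠ 0 := (hg z).continuousAt.eventually_ne hz
      refine ((hf z).div (hg z) hz).congr_of_eventuallyEq ?_
      filter_upwards [h3] with x hx
      rw [if_neg hx]
      rfl
  · intro z
    by_cases hz : g z = 0
    · simp only [hz, if_true, mul_zero]
      exact (h z hz).1
    · simp only [hz, if_false]
      field_simp

/-- the solution of `f'' + f = k` on the strip is algebraic over `ℂ (exp (i z))` -/
theorem halg_of_const {κ : ℝ} (hκ : 0 < κ) {H : ℂ → ℂ} (dH : DifferentiableOn ℂ H (Str κ)) {k : ℂ}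
    (h : ∀ z ∈ Str κ, H z + deriv (deriv H) z = k) : HAlg κ H := by
  have hop := isOpen_Str κ
  have hd1 : ∀ z ∈ Str κ, HasDerivAt H (deriv H z) z := fun z hz =>
    (dH.differentiableAt (hop.mem_nhds hz)).hasDerivAt
  have dH' : DifferentiableOn ℂ (deriv H) (Str κ) := dH.deriv hop
  have hd2 : ∀ z ∈ Str κ, HasDerivAt (deriv H) (deriv (deriv H) z) z := fun z hz =>
    (dH'.differentiableAt (hop.mem_nhds hz)).hasDerivAt
  have h0 : (0 : ℂ) ∈ Str κ := by
    have := real_mem_Str hκ 0
    simpa using this
  -- two first integrals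
  have hfi : ∀ s : ℂ, s ^ 2 = -1 → ∀ z ∈ Str κ,
      (deriv H z + s * (H z - k)) * exp (-(s * z)) = deriv H 0 + s * (H 0 - k) := by
    intro s hs z hz
    have hD : ∀ x ∈ Str κ, HasDerivAt (fun z => (deriv H z + s * (H z - k)) * exp (-(s * z))) 0 x := by
      intro x hx
      have a1 := ((hd2 x hx).add (((hd1 x hx).sub_const k).const_mul s)).mul
        ((((hasDerivAt_id x).const_mul s).neg).cexp)
      refine a1.congr_deriv ?_
      have e := h x hx
      simp only [id_eq, Pi.add_apply]
      linear_combination exp (-(s * x)) * e - exp (-(s * x)) * (H x - k) * hs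
    have := hop.is_const_of_deriv_eq_zero (convex_Str κ).isPreconnected
      (fun x hx => (hD x hx).differentiableAt.differentiableWithinAt)
      (fun x hx => (hD x hx).deriv) hz h0
    simpa using this
  have hI : I ^ 2 = -1 := I_sq
  have hI' : (-I) ^ 2 = -1 := by rw [neg_sq, I_sq]
  set a := deriv H 0 + I * (H 0 - k) with ha
  set b := deriv H 0 + -I * (H 0 - k) with hb
  have hsol : ∀ z ∈ Str κ, 2 * I * exp (I * z) * (H z - k) = a * exp (I * z) ^ 2 - b := by
    intro z hz
    have e1 := hfi I hI z hz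
    have e2 := hfi (-I) hI' z hz
    rw [← ha] at e1
    rw [← hb] at e2
    have e3 : exp (-(I * z)) * exp (I * z) = 1 := by rw [← exp_add]; simp
    have e4 : exp (-(-I * z)) = exp (I * z) := by congr 1; ring
    rw [e4] at e2
    linear_combination (exp (I * z) ^ 2) * e1 - e2 -
      (exp (I * z)) * (deriv H z + I * (H z - k)) * e3
  refine ⟨MvPolynomial.C (2 * I) * MvPolynomial.X 0 * (MvPolynomial.X 1 - MvPolynomial.C k) -
    (MvPolynomial.C a * MvPolynomial.X 0 ^ 2 - MvPolynomial.C b), ?_, ?_⟩
  · intro hP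
    -- evaluate at `(1, x)` for two values of `x`
    have e1 := congrArg (MvPolynomial.eval ![(1 : ℂ), 0]) hP
    have e2 := congrArg (MvPolynomial.eval ![(1 : ℂ), 1]) hP
    simp at e1 e2
    have e3 : (2 : ℂ) * I = 0 := by linear_combination e2 - e1
    simp at e3
  · intro z hz
    rw [H456.Fct.Rel]
    have e := hsol z hz
    simp only [map_sub, map_mul, MvPolynomial.eval_C, MvPolynomial.eval_X, map_pow, Fin.cons_zero]
    have e1 : (Fin.cons (exp (I * z)) fun i : Fin (0 + 1) => iteratedDeriv (i : ℕ) H z :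
        Fin (0 + 2) → ℂ) 1 = H z := by
      have : (1 : Fin (0 + 2)) = Fin.succ 0 := rfl
      rw [this, Fin.cons_succ]
      simp
    rw [e1]
    linear_combination e

/-- **Row B** -/
theorem rowB : RowB := by
  intro κ Λ H Φ r e α p J F q E
  obtain ⟨h, ρ, L, HH, lam, l, φ, T⟩ := E.ctx.ld
  have hκ := T.κ0
  have hρ := T.ρ0
  have hΛ := T.Λ0
  have dF := E.dF
  have dq := E.dq
  have hop := isOpen_Str ρ
  have dF1 : Differentiable ℂ (deriv F) := fun z => (dF.analyticAt z).deriv.differentiableAt
  have dF2 : Differentiable ℂ (deriv (deriv F)) := fun z =>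
    (dF.analyticAt z).deriv.deriv.differentiableAt
  have dq1 : Differentiable ℂ (deriv q) := fun z => (dq.analyticAt z).deriv.differentiableAt
  have dq2 : Differentiable ℂ (deriv (deriv q)) := fun z =>
    (dq.analyticAt z).deriv.deriv.differentiableAt
  -- on the strip
  have dΦ : DifferentiableOn ℂ Φ (Str ρ) := fun z hz =>
    (T.dΦ z hz).differentiableAt.differentiableWithinAt
  have hΦκ : ∀ z ∈ Str ρ, Φ z ∈ Str κ := fun z hz =>
    Str_mono (by linarith) (T.Φm z hz)
  have eF : ∀ z ∈ Str ρ, F z = Φ z := fun z hz =>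
    str_eq hρ dF.differentiableOn dΦ (fun x => (E.re x).1) hz
  have dHΦ : DifferentiableOn ℂ (fun z => H (Φ z)) (Str ρ) := T.dH.comp dΦ (fun z hz => hΦκ z hz)
  have eq' : ∀ z ∈ Str ρ, q z = H (Φ z) := fun z hz =>
    str_eq hρ dq.differentiableOn dHΦ (fun x => (E.re x).2) hz
  -- derivatives on the strip
  have hF1 : ∀ z ∈ Str ρ, HasDerivAt F (Λ / lam (Φ z)) z := fun z hz => by
    refine (T.dΦ z hz).congr_of_eventuallyEq ?_
    filter_upwards [hop.mem_nhds hz] with x hx using eF x hx
  have hdF1 : ∀ z ∈ Str ρ, deriv F z = Λ / lam (Φ z) := fun z hz => (hF1 z hz).deriv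
  have hF10 : ∀ z ∈ Str ρ, deriv F z ≠ 0 := fun z hz => by
    rw [hdF1 z hz]
    exact div_ne_zero (Complex.ofReal_ne_zero.2 hΛ.ne') (T.lam0 _ (hΦκ z hz))
  have opκ := isOpen_Str κ
  have hH1 : ∀ z ∈ Str κ, HasDerivAt H (deriv H z) z := fun z hz =>
    (T.dH.differentiableAt (opκ.mem_nhds hz)).hasDerivAt
  have hH2 : ∀ z ∈ Str κ, HasDerivAt (deriv H) (deriv (deriv H) z) z := fun z hz =>
    ((T.dH.deriv opκ).differentiableAt (opκ.mem_nhds hz)).hasDerivAt
  have hΦd : ∀ z ∈ Str ρ, HasDerivAt Φ (deriv F z) z := fun z hz => by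
    have := T.dΦ z hz
    rwa [← hdF1 z hz] at this
  have hq1 : ∀ z ∈ Str ρ, HasDerivAt q (deriv H (Φ z) * deriv F z) z := fun z hz => by
    refine ((hH1 _ (hΦκ z hz)).comp z (hΦd z hz)).congr_of_eventuallyEq ?_
    filter_upwards [hop.mem_nhds hz] with x hx using eq' x hx
  have hq2 : ∀ z ∈ Str ρ, HasDerivAt (deriv q)
      (deriv (deriv H) (Φ z) * deriv F z * deriv F z + deriv H (Φ z) * deriv (deriv F) z) z :=
    fun z hz => by
    have a1 := ((hH2 _ (hΦκ z hz)).comp z (hΦd z hz)).mul (dF1 z).hasDerivAt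
    refine a1.congr_of_eventuallyEq ?_
    filter_upwards [hop.mem_nhds hz] with x hx
    exact (hq1 x hx).deriv
  have wrs : ∀ z ∈ Str ρ, Wr F q z = (Λ : ℂ) ^ 3 := by
    intro z hz
    have h3 := T.lam3 _ (hΦκ z hz)
    have h0 := T.lam0 _ (hΦκ z hz)
    rw [Wr, (hq2 z hz).deriv, (hq1 z hz).deriv, eq' z hz]
    have e1 : deriv F z * lam (Φ z) = Λ := by
      rw [hdF1 z hz]; field_simp
    have e2 : deriv F z ^ 3 * lam (Φ z) ^ 3 = (Λ : ℂ) ^ 3 := by
      rw [← mul_pow, e1]
    linear_combination e2 - deriv F z ^ 3 * h3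
  have wr : ∀ z, Wr F q z = (Λ : ℂ) ^ 3 := by
    have d1 : Differentiable ℂ (Wr F q) := by
      intro z
      have a := ((dq2 z).mul (dF1 z)).sub ((dq1 z).mul (dF2 z)) |>.add ((dq z).mul ((dF1 z).pow 3))
      exact a
    have d2 : Differentiable ℂ (fun _ : ℂ => (Λ : ℂ) ^ 3) := differentiable_const _
    intro z
    exact ent_eq d1 d2 (fun x => wrs x (real_mem_Str hρ x)) z
  -- zeros of `F'` are simple, `F'''` vanishes there
  have hz0 : ∀ z, deriv F z = 0 → deriv (deriv (deriv F)) z = 0 ∧ deriv (deriv F) z ≠ 0 := by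
    intro z hz
    have e1 := wr z
    rw [Wr, hz] at e1
    have hΛ3 : (Λ : ℂ) ^ 3 ≠ 0 := pow_ne_zero _ (Complex.ofReal_ne_zero.2 hΛ.ne')
    have h2 : deriv (deriv F) z ≠ 0 := by
      intro h
      apply hΛ3
      rw [← e1, h]
      ring
    have h3 : deriv q z ≠ 0 := by
      intro h
      apply hΛ3
      rw [← e1, h]
      ring
    refine ⟨?_, h2⟩
    have a := ((dq2 z).hasDerivAt.mul (dF1 z).hasDerivAt).sub
      ((dq1 z).hasDerivAt.mul (dF2 z).hasDerivAt) |>.add
      ((dq z).hasDerivAt.mul ((dF1 z).hasDerivAt.pow 3))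
    have b : HasDerivAt (Wr F q) 0 z := by
      refine (hasDerivAt_const z ((Λ : ℂ) ^ 3)).congr_of_eventuallyEq ?_
      exact Eventually.of_forall wr
    have c := b.unique (a : HasDerivAt (Wr F q) _ z)
    rw [hz] at c
    simp only [Pi.pow_apply, hz] at c
    have d : deriv q z * deriv (deriv (deriv F)) z = 0 := by
      push_cast at c
      norm_num at c
      rcases c with c | c
      · exact absurd c h3
      · rw [c, mul_zero]
    exact (mul_eq_zero.1 d).resolve_left h3
  obtain ⟨Q, dQ, hQ, hQf⟩ := exists_quot (f := deriv (deriv (deriv F))) (g := deriv F)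
    (fun z => (dF.analyticAt z).deriv.deriv.deriv.differentiableAt) dF1 hz0
  -- periods
  have Fp : ∀ z, F (z + 1) = F z + 2 * Real.pi := by
    refine ent_eq (f := fun z => F (z + 1)) (g := fun z => F z + 2 * Real.pi)
      (dF.comp (differentiable_id.add_const 1)) (dF.add_const _) (fun x => ?_)
    have e1 := (E.re (x + 1)).1
    have e2 := (E.re x).1
    have e3 := T.Φp x (real_mem_Str hρ x)
    push_cast at e1
    show F ((x : ℂ) + 1) = F x + 2 * Real.pi
    rw [e1, e2, e3]
  have qp : ∀ z, q (z + 1) = q z := by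
    refine ent_eq (f := fun z => q (z + 1)) (g := q)
      (dq.comp (differentiable_id.add_const 1)) dq (fun x => ?_)
    have e1 := (E.re (x + 1)).2
    have e2 := (E.re x).2
    have e3 := T.Φp x (real_mem_Str hρ x)
    push_cast at e1
    show q ((x : ℂ) + 1) = q x
    rw [e1, e2, e3, T.Hp _ (hΦκ x (real_mem_Str hρ x))]
  have F1p : ∀ z, deriv F (z + 1) = deriv F z := by
    intro z
    have a := (dF (z + 1)).hasDerivAt.comp_add_const z 1
    have b : HasDerivAt (fun x => F (x + 1)) (deriv F z) z := by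
      have : (fun x => F (x + 1)) = fun x => F x + 2 * Real.pi := funext Fp
      rw [this]
      exact (dF z).hasDerivAt.add_const _
    exact a.unique b
  have F2p : ∀ z, deriv (deriv F) (z + 1) = deriv (deriv F) z := by
    intro z
    have a := (dF1 (z + 1)).hasDerivAt.comp_add_const z 1
    have b : HasDerivAt (fun x => deriv F (x + 1)) (deriv (deriv F) z) z := by
      have : (fun x => deriv F (x + 1)) = fun x => deriv F x := funext F1p
      rw [this]
      exact (dF1 z).hasDerivAt
    exact a.unique b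
  have F3p : ∀ z, deriv (deriv (deriv F)) (z + 1) = deriv (deriv (deriv F)) z := by
    intro z
    have a := (dF2 (z + 1)).hasDerivAt.comp_add_const z 1
    have b : HasDerivAt (fun x => deriv (deriv F) (x + 1)) (deriv (deriv (deriv F)) z) z := by
      have : (fun x => deriv (deriv F) (x + 1)) = fun x => deriv (deriv F) x := funext F2p
      rw [this]
      exact (dF2 z).hasDerivAt
    exact a.unique b
  have F4p : ∀ z, deriv (deriv (deriv (deriv F))) (z + 1) = deriv (deriv (deriv (deriv F))) z := by
    intro z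
    have dF3 : Differentiable ℂ (deriv (deriv (deriv F))) := fun z =>
      (dF.analyticAt z).deriv.deriv.deriv.differentiableAt
    have a := (dF3 (z + 1)).hasDerivAt.comp_add_const z 1
    have b : HasDerivAt (fun x => deriv (deriv (deriv F)) (x + 1))
        (deriv (deriv (deriv (deriv F))) z) z := by
      have : (fun x => deriv (deriv (deriv F)) (x + 1)) = fun x => deriv (deriv (deriv F)) x :=
        funext F3p
      rw [this]
      exact (dF3 z).hasDerivAt
    exact a.unique b
  have Qp : ∀ z, Q (z + 1) = Q z := by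
    intro z
    rw [hQf, hQf, F1p, F2p, F3p, F4p]
  -- reality
  have hreal : ∀ x : ℝ, (F x).im = 0 := fun x => by
    rw [(E.re x).1, T.Φr, ofReal_im]
  have hrealq : ∀ x : ℝ, (q x).im = 0 := fun x => by
    rw [(E.re x).2, T.Φr, T.Hr, ofReal_im]
  have Fc : ∀ z, F (conj z) = conj (F z) := by
    intro z
    have a : Differentiable ℂ (fun z => conj (F (conj z))) := by
      intro z
      have := (dF (conj z)).conj_conj
      rw [Complex.conj_conj] at this
      exact this
    have b := ent_eq a dF (fun x => by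
      show conj (F (conj (x : ℂ))) = F x
      rw [Complex.conj_ofReal, Complex.conj_eq_iff_im.2 (hreal x)]) z
    rw [← b, Complex.conj_conj]
  have qc : ∀ z, q (conj z) = conj (q z) := by
    intro z
    have a : Differentiable ℂ (fun z => conj (q (conj z))) := by
      intro z
      have := (dq (conj z)).conj_conj
      rw [Complex.conj_conj] at this
      exact this
    have b := ent_eq a dq (fun x => by
      show conj (q (conj (x : ℂ))) = q x
      rw [Complex.conj_ofReal, Complex.conj_eq_iff_im.2 (hrealq x)]) z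
    rw [← b, Complex.conj_conj]
  refine ⟨Q, hΛ, dF, dq, dQ, wr, Fp, qp, Qp, Fc, qc, ?_, hQ, ?_⟩
  · intro x
    rw [hdF1 x (real_mem_Str hρ x), T.Φr, T.lamr, ← Complex.ofReal_div, Complex.ofReal_re]
    exact div_pos hΛ (T.lpos _)
  · rintro ⟨a, ha⟩
    apply E.na
    -- `lam` is constant on the reals
    have h1 : ∀ x ∈ Str ρ, lam (Φ x) = Λ / a := by
      intro x hx
      have e1 := hdF1 x hx
      rw [ha] at e1
      have h0 := T.lam0 _ (hΦκ x hx)
      have ha0 : a ≠ 0 := by
        intro h
        exact hF10 x hx (by rw [ha, h])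
      rw [eq_div_iff h0] at e1
      rw [eq_div_iff ha0, ← e1]
      ring
    have h2 : ∀ y ∈ Str κ, H y + deriv (deriv H) y = (Λ / a) ^ 3 := by
      intro y hy
      have d1 : DifferentiableOn ℂ (fun z => H z + deriv (deriv H) z) (Str κ) :=
        T.dH.add ((T.dH.deriv opκ).deriv opκ)
      have d2 : DifferentiableOn ℂ (fun _ : ℂ => ((Λ : ℂ) / a) ^ 3) (Str κ) :=
        differentiableOn_const _
      have hA : AnalyticOnNhd ℂ (fun z => H z + deriv (deriv H) z) (Str κ) := d1.analyticOnNhd opκ
      have hB : AnalyticOnNhd ℂ (fun _ : ℂ => ((Λ : ℂ) / a) ^ 3) (Str κ) := d2.analyticOnNhd opκ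
      -- the image of `Φ` is a neighbourhood of `Φ 0`
      have h00 : (0 : ℂ) ∈ Str ρ := by
        have := real_mem_Str hρ 0
        simpa using this
      have hnc : ∀ᶠ y in 𝓝 (Φ 0), H y + deriv (deriv H) y = (Λ / a) ^ 3 := by
        have hΦ0 : deriv F 0 ≠ 0 := hF10 0 h00
        have haΦ : AnalyticAt ℂ Φ 0 := dΦ.analyticAt (hop.mem_nhds h00)
        have hst : HasStrictDerivAt Φ (deriv F 0) 0 := by
          have := haΦ.hasStrictDerivAt
          rwa [(hΦd 0 h00).deriv] at this
        have hmap := hst.map_nhds_eq hΦ0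
        rw [← hmap, eventually_map]
        filter_upwards [hop.mem_nhds h00] with x hx
        rw [← T.lam3 _ (hΦκ x hx), h1 x hx]
      exact hA.eqOn_of_preconnected_of_eventuallyEq hB (convex_Str κ).isPreconnected (hΦκ 0 h00)
        hnc hy
    exact halg_of_const hκ T.dH h2

end Vale.Agent.P097.H710
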