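import Mathlib

/-!
# P097, case [d], row D1': start data below the window

`T t w = θ t w - t`.  If `T (t + w) w - T t w` is small along the steps, `T` is small near the real
axis, and `T t` is holomorphic in `w`, then `T` is small for all `w`, real ones included.
-/

set_option linter.all false

open Complex Metric Filter Topology Set MeasureTheory intervalIntegral

namespace Vale.Agent.P097.H710

/-- descent for `Im v > 0`, `Im t ≥ 0` -/
theorem descend {T : ℂ → ℂ} {v : ℂ} {y τ0 a : ℝ} {ε : ℝ → ℝ} (hv : 0 < v.im) (ha : 0 ≤ a)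
    (hmono : MonotoneOn ε (Icc 0 y)) (h0 : 0 ≤ ε 0)
    (hstep : ∀ t : ℂ, 0 ≤ (t - v).im → t.im ≤ y → ‖T t - T (t - v)‖ ≤ a * ε t.im)
    (hbase : ∀ t : ℂ, 0 ≤ t.im → t.im ≤ v.im → t.im ≤ y → ‖T t‖ ≤ τ0) :
    ∀ t : ℂ, 0 ≤ t.im → t.im ≤ y →
      ‖T t‖ ≤ τ0 + a * ε t.im + a / v.im * ∫ h in (0 : ℝ)..t.im, ε h := by
  have hint : ∀ p q : ℝ, 0 ≤ p → p ≤ q → q ≤ y → IntervalIntegrable ε volume p q := by
    intro p q hp hpq hq
    refine MonotoneOn.intervalIntegrable ?_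
    rw [uIcc_of_le hpq]
    exact hmono.mono (Icc_subset_Icc hp hq)
  have hnn : ∀ h : ℝ, 0 ≤ h → h ≤ y → 0 ≤ ε h := fun h h1 h2 =>
    h0.trans (hmono ⟨le_rfl, h1.trans h2⟩ ⟨h1, h2⟩ h1)
  have hinn : ∀ q : ℝ, 0 ≤ q → q ≤ y → 0 ≤ ∫ h in (0 : ℝ)..q, ε h := by
    intro q hq hqy
    exact intervalIntegral.integral_nonneg hq (fun h hh => hnn h hh.1 (hh.2.trans hqy))
  have key : ∀ n : ℕ, ∀ t : ℂ, 0 ≤ t.im → t.im ≤ y → t.im ≤ (n + 1) * v.im → 
      ‖T t‖ ≤ τ0 + a * ε t.im + a / v.im * ∫ h in (0 : ℝ)..t.im, ε h := by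
    intro n
    induction n with
    | zero =>
      intro t ht hty htn
      have h1 := hbase t ht (by simpa using htn) hty
      have h2 : 0 ≤ a * ε t.im := mul_nonneg ha (hnn _ ht hty)
      have h3 : 0 ≤ a / v.im * ∫ h in (0 : ℝ)..t.im, ε h :=
        mul_nonneg (div_nonneg ha hv.le) (hinn _ ht hty)
      linarith
    | succ n ih =>
      intro t ht hty htn
      rcases le_or_gt t.im v.im with hlt | hgt
      · have h1 := hbase t ht hlt hty
        have h2 : 0 ≤ a * ε t.im := mul_nonneg ha (hnn _ ht hty)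
        have h3 : 0 ≤ a / v.im * ∫ h in (0 : ℝ)..t.im, ε h :=
          mul_nonneg (div_nonneg ha hv.le) (hinn _ ht hty)
        linarith
      · have him : (t - v).im = t.im - v.im := by simp
        have h4 : 0 ≤ (t - v).im := by rw [him]; linarith
        have h5 := hstep t h4 hty
        have h6 := ih (t - v) h4 (by rw [him]; linarith) (by
          rw [him]; push_cast at htn; linarith)
        have h7 : a * ε (t - v).im ≤ a / v.im * ∫ h in (t.im - v.im)..t.im, ε h := by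
          have h8 : (∫ h in (t.im - v.im)..t.im, ε (t.im - v.im)) ≤
              ∫ h in (t.im - v.im)..t.im, ε h := by
            refine integral_mono_on (by linarith) intervalIntegrable_const
              (hint _ _ (by rw [him] at h4; exact h4) (by linarith) hty) ?_
            intro x hx
            exact hmono ⟨by rw [him] at h4; exact h4, by linarith⟩
              ⟨by rw [him] at h4; linarith [hx.1], hx.2.trans hty⟩ hx.1
          rw [intervalIntegral.integral_const, smul_eq_mul] at h8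
          have h9 : a * ε (t - v).im = a / v.im * ((t.im - (t.im - v.im)) * ε (t.im - v.im)) := by
            rw [him]; field_simp; ring
          rw [h9]
          exact mul_le_mul_of_nonneg_left h8 (div_nonneg ha hv.le)
        have h10 : (∫ h in (0 : ℝ)..(t.im - v.im), ε h) + ∫ h in (t.im - v.im)..t.im, ε h =
            ∫ h in (0 : ℝ)..t.im, ε h := by
          refine integral_add_adjacent_intervals (hint _ _ le_rfl ?_ (by linarith))
            (hint _ _ ?_ (by linarith) hty)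
          · rw [him] at h4; exact h4
          · rw [him] at h4; exact h4
        calc ‖T t‖ = ‖(T t - T (t - v)) + T (t - v)‖ := by rw [sub_add_cancel]
          _ ≤ ‖T t - T (t - v)‖ + ‖T (t - v)‖ := norm_add_le _ _
          _ ≤ a * ε t.im + (τ0 + a * ε (t - v).im + a / v.im * ∫ h in (0 : ℝ)..(t - v).im, ε h) :=
            add_le_add h5 h6
          _ ≤ a * ε t.im + (τ0 + a / v.im * (∫ h in (t.im - v.im)..t.im, ε h) +
              a / v.im * ∫ h in (0 : ℝ)..(t.im - v.im), ε h) := by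
            rw [him] at h7 ⊢; linarith
          _ = _ := by rw [← h10]; ring
  intro t ht hty
  obtain ⟨n, hn⟩ := exists_nat_ge (t.im / v.im)
  refine key n t ht hty ?_
  rw [div_le_iff₀ hv] at hn
  nlinarith

/-- descent, both signs -/
theorem descend' {T : ℂ → ℂ} {w : ℂ} {y τ0 a : ℝ} {ε : ℝ → ℝ} (hw : w.im ≠ 0) (ha : 0 ≤ a)
    (hmono : MonotoneOn ε (Icc 0 y)) (h0 : 0 ≤ ε 0)
    (hstep : ∀ t : ℂ, |t.im| ≤ y → |(t + w).im| ≤ y →
      ‖T (t + w) - T t‖ ≤ a * ε (max |t.im| |(t + w).im|))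
    (hbase : ∀ t : ℂ, |t.im| ≤ |w.im| → |t.im| ≤ y → ‖T t‖ ≤ τ0) {t : ℂ} (ht : |t.im| ≤ y) :
      ‖T t‖ ≤ τ0 + a * ε |t.im| + a / |w.im| * ∫ h in (0 : ℝ)..|t.im|, ε h := by
  -- reduce to `0 < w.im`
  wlog hpos : 0 < w.im generalizing w with H
  · have hneg : 0 < (-w).im := by
      rw [neg_im]
      rcases lt_or_gt_of_ne hw with h | h
      · linarith
      · exact absurd h hpos
    have h1 := H (w := -w) hneg.ne' (by
        intro s hs1 hs2
        have h2 := hstep (s + -w) hs2 (by simpa using hs1)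
        rw [neg_add_cancel_right] at h2
        rw [norm_sub_rev, max_comm]
        exact h2) (by
        intro s hs1 hs2
        exact hbase s (by rwa [neg_im, abs_neg] at hs1) hs2) hneg
    rwa [neg_im, abs_neg] at h1
  -- reduce to `0 ≤ t.im`
  wlog htp : 0 ≤ t.im generalizing T t with H2
  · have h1 := H2 (T := fun s => T (-s)) (t := -t) (by rwa [neg_im, abs_neg]) (by
        intro s hs1 hs2
        have h2 := hstep (-(s + w)) (by rwa [neg_im, abs_neg]) (by
          rw [neg_add_rev, neg_add_cancel_comm, neg_im, abs_neg]; exact hs1)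
        have e1 : -(s + w) + w = -s := by ring
        rw [e1, neg_im, neg_im, abs_neg, abs_neg] at h2
        rw [norm_sub_rev, max_comm]
        exact h2) (by
        intro s hs1 hs2
        exact hbase (-s) (by rwa [neg_im, abs_neg]) (by rwa [neg_im, abs_neg]))
      (by rw [neg_im]; linarith)
    rwa [neg_neg, neg_im, abs_neg] at h1
  rw [abs_of_nonneg htp] at ht
  rw [abs_of_nonneg htp, abs_of_pos hpos]
  refine descend hpos ha hmono h0 ?_ ?_ t htp ht
  · intro s hs1 hs2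
    have h3 : (s - w).im = s.im - w.im := by simp
    have h4 : 0 ≤ s.im := by rw [h3] at hs1; linarith
    have h2 := hstep (s - w) (by rw [abs_of_nonneg hs1, h3]; linarith) (by
      rw [sub_add_cancel, abs_of_nonneg h4]; exact hs2)
    rw [sub_add_cancel, abs_of_nonneg hs1, abs_of_nonneg h4, max_eq_right (by rw [h3]; linarith)] at h2
    exact h2
  · intro s hs1 hs2 hs3
    exact hbase s (by rw [abs_of_nonneg hs1, abs_of_pos hpos]; exact hs2)
      (by rw [abs_of_nonneg hs1]; exact hs3)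

/-- **START DATA**: real `w` included. -/
theorem start {T : ℂ → ℂ → ℂ} {y ρ τ0 : ℝ} {ε : ℝ → ℝ} (hρ : 0 < ρ)
    (hmono : MonotoneOn ε (Icc 0 y)) (h0 : 0 ≤ ε 0) (hτ : 0 ≤ τ0)
    (hd : ∀ t : ℂ, |t.im| ≤ y → DiffContOnCl ℂ (fun w => T t w) (ball 0 ρ))
    (hstep : ∀ t w : ℂ, ‖w‖ = ρ → |t.im| ≤ y → |(t + w).im| ≤ y →
      ‖T (t + w) w - T t w‖ ≤ ρ * ε (max |t.im| |(t + w).im|))
    (hbase : ∀ t w : ℂ, ‖w‖ = ρ → |t.im| ≤ ρ → |t.im| ≤ y → ‖T t w‖ ≤ τ0)
    {t w : ℂ} (ht : |t.im| ≤ y) (hw : ‖w‖ ≤ ρ / 2) :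
    ‖T t w‖ ≤ 3 * (τ0 + ρ * ε |t.im| + ∫ h in (0 : ℝ)..|t.im|, ε h) := by
  set I := ∫ h in (0 : ℝ)..|t.im|, ε h with hI
  have hnn : ∀ h : ℝ, 0 ≤ h → h ≤ y → 0 ≤ ε h := fun h h1 h2 =>
    h0.trans (hmono ⟨le_rfl, h1.trans h2⟩ ⟨h1, h2⟩ h1)
  have hI0 : 0 ≤ I := intervalIntegral.integral_nonneg (abs_nonneg _)
    (fun h hh => hnn h hh.1 (hh.2.trans ht))
  have hε0 : 0 ≤ ε |t.im| := hnn _ (abs_nonneg _) ht
  set B := τ0 + ρ * ε |t.im| + I with hB
  have hB0 : 0 ≤ B := by positivity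
  -- the auxiliary function
  have hf : DiffContOnCl ℂ (fun w : ℂ => (w ^ 2 - (ρ : ℂ) ^ 2) * T t w) (ball 0 ρ) := by
    have h1 : DiffContOnCl ℂ (fun w : ℂ => w ^ 2 - (ρ : ℂ) ^ 2) (ball 0 ρ) := by
      apply Differentiable.diffContOnCl
      fun_prop
    exact h1.smul (hd t ht)
  have hbd : ∀ x ∈ frontier (ball (0 : ℂ) ρ), ‖(x ^ 2 - (ρ : ℂ) ^ 2) * T t x‖ ≤ 2 * ρ ^ 2 * B := by
    intro x hx
    rw [frontier_ball (0 : ℂ) hρ.ne', mem_sphere_zero_iff_norm] at hx
    have hxi : |x.im| ≤ ρ := by rw [← hx]; exact abs_im_le_norm x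
    have h1 : ‖x ^ 2 - (ρ : ℂ) ^ 2‖ = 2 * ρ * |x.im| := by
      have h2 : (ρ : ℂ) ^ 2 = x * (starRingEnd ℂ) x := by
        rw [mul_conj, normSq_eq_norm_sq, hx]; push_cast; ring
      have h3 : x ^ 2 - (ρ : ℂ) ^ 2 = x * (x - (starRingEnd ℂ) x) := by rw [h2]; ring
      rw [h3, norm_mul, hx]
      have h4 : ‖x - (starRingEnd ℂ) x‖ = 2 * |x.im| := by
        rw [sub_conj, norm_mul, norm_I, mul_one, Complex.norm_real, Real.norm_eq_abs,
          abs_mul]
        norm_num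
      rw [h4]; ring
    by_cases hx0 : x.im = 0
    · rw [norm_mul, h1, hx0, abs_zero, mul_zero, zero_mul]
      positivity
    · have h5 := descend' (T := fun s => T s x) (w := x) (a := ρ) (τ0 := τ0) hx0 hρ.le hmono h0
        (fun s hs1 hs2 => hstep s x hx hs1 hs2)
        (fun s hs1 hs2 => hbase s x hx (hs1.trans hxi) hs2) ht
      have h6 : 0 < |x.im| := abs_pos.2 hx0
      rw [norm_mul, h1]
      calc 2 * ρ * |x.im| * ‖T t x‖ ≤ 2 * ρ * |x.im| * (τ0 + ρ * ε |t.im| + ρ / |x.im| * I) :=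
            mul_le_mul_of_nonneg_left h5 (by positivity)
        _ = 2 * ρ * |x.im| * (τ0 + ρ * ε |t.im|) + 2 * ρ ^ 2 * I := by
            field_simp
        _ ≤ 2 * ρ * ρ * (τ0 + ρ * ε |t.im|) + 2 * ρ ^ 2 * I := by
            have : 0 ≤ τ0 + ρ * ε |t.im| := by positivity
            have h7 : 2 * ρ * |x.im| ≤ 2 * ρ * ρ := by
              exact mul_le_mul_of_nonneg_left hxi (by positivity)
            have h8 := mul_le_mul_of_nonneg_right h7 this
            linarith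
        _ = 2 * ρ ^ 2 * B := by rw [hB]; ring
  have hwm : w ∈ closure (ball (0 : ℂ) ρ) := by
    apply subset_closure
    rw [mem_ball_zero_iff]; linarith
  have h9 := norm_le_of_forall_mem_frontier_norm_le isBounded_ball hf hbd hwm
  have h10 : 3 / 4 * ρ ^ 2 ≤ ‖w ^ 2 - (ρ : ℂ) ^ 2‖ := by
    have h11 : ‖(ρ : ℂ) ^ 2‖ - ‖w ^ 2‖ ≤ ‖(ρ : ℂ) ^ 2 - w ^ 2‖ := norm_sub_norm_le _ _
    rw [norm_sub_rev] at h11
    have h12 : ‖(ρ : ℂ) ^ 2‖ = ρ ^ 2 := by
      rw [norm_pow, Complex.norm_real, Real.norm_eq_abs, abs_of_pos hρ]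
    have h13 : ‖w ^ 2‖ ≤ (ρ / 2) ^ 2 := by
      rw [norm_pow]; exact pow_le_pow_left₀ (norm_nonneg _) hw 2
    rw [h12] at h11
    nlinarith
  rw [norm_mul] at h9
  have h14 : 3 / 4 * ρ ^ 2 * ‖T t w‖ ≤ 2 * ρ ^ 2 * B :=
    (mul_le_mul_of_nonneg_right h10 (norm_nonneg _)).trans h9
  have h15 : ρ ^ 2 * (3 / 4 * ‖T t w‖) ≤ ρ ^ 2 * (2 * B) := by linarith
  have h16 := le_of_mul_le_mul_left h15 (by positivity)
  linarith

/-- **START DATA, window form**: the relative error of a step at height `h` is at most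
`A exp (-2 min (K, (y1 - h) / D))`; the conclusion at height `y1 - Y0 D`. -/
theorem start_window {T : ℂ → ℂ → ℂ} {y1 ρ τ0 A K D Y0 : ℝ} (hρ : 0 < ρ) (hA : 0 ≤ A) (hD : 0 < D)
    (hK : Y0 ≤ K) (hY0 : 0 ≤ Y0) (hτ : 0 ≤ τ0) (hy : 0 ≤ y1 - Y0 * D)
    (hd : ∀ t : ℂ, |t.im| ≤ y1 - Y0 * D → DiffContOnCl ℂ (fun w => T t w) (ball 0 ρ))
    (hstep : ∀ t w : ℂ, ‖w‖ = ρ → |t.im| ≤ y1 - Y0 * D → |(t + w).im| ≤ y1 - Y0 * D →
      ‖T (t + w) w - T t w‖ ≤
        ρ * (A * Real.exp (-2 * min K ((y1 - max |t.im| |(t + w).im|) / D))))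
    (hbase : ∀ t w : ℂ, ‖w‖ = ρ → |t.im| ≤ ρ → |t.im| ≤ y1 - Y0 * D → ‖T t w‖ ≤ τ0)
    {t w : ℂ} (ht : |t.im| ≤ y1 - Y0 * D) (hw : ‖w‖ ≤ ρ / 2) :
    ‖T t w‖ ≤ 3 * (τ0 + A * (ρ + D) * Real.exp (-2 * Y0) + A * y1 * Real.exp (-2 * K)) := by
  set y := y1 - Y0 * D with hyd
  have hDne := hD.ne'
  set ε : ℝ → ℝ := fun h => A * Real.exp (-2 * min K ((y1 - h) / D)) with hε
  have hmono' : Monotone ε := by
    intro a b hab
    refine mul_le_mul_of_nonneg_left (Real.exp_le_exp.2 ?_) hA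
    have h1 : min K ((y1 - b) / D) ≤ min K ((y1 - a) / D) :=
      min_le_min le_rfl (by gcongr)
    linarith
  have hmono : MonotoneOn ε (Icc 0 y) := hmono'.monotoneOn _
  have hε0 : ∀ h, 0 ≤ ε h := fun h => by positivity
  have h1 := start hρ hmono (hε0 0) hτ hd hstep hbase ht hw
  refine h1.trans ?_
  have hty : ε |t.im| ≤ A * Real.exp (-2 * Y0) := by
    refine (hmono' ht).trans ?_
    rw [hε]
    refine mul_le_mul_of_nonneg_left (Real.exp_le_exp.2 ?_) hA
    have h2 : (y1 - y) / D = Y0 := by rw [hyd]; field_simp; ring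
    rw [h2, min_eq_right hK]
  -- the integral
  have hint : ∀ p q : ℝ, IntervalIntegrable ε volume p q := fun p q => hmono'.intervalIntegrable
  have hI : ∫ h in (0 : ℝ)..|t.im|, ε h ≤ A * D * Real.exp (-2 * Y0) + A * y1 * Real.exp (-2 * K) := by
    have h3 : ∫ h in (0 : ℝ)..|t.im|, ε h ≤ ∫ h in (0 : ℝ)..y, ε h := by
      refine integral_mono_interval le_rfl (abs_nonneg _) ht ?_ (hint _ _)
      exact Filter.Eventually.of_forall hε0
    refine h3.trans ?_
    have hc1 : Continuous (fun h : ℝ => A * Real.exp (-2 * K)) := continuous_const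
    have hc2 : Continuous (fun h : ℝ => A * Real.exp (-2 * ((y1 - h) / D))) := by fun_prop
    have h4 : ∫ h in (0 : ℝ)..y, ε h ≤
        ∫ h in (0 : ℝ)..y, (A * Real.exp (-2 * K) + A * Real.exp (-2 * ((y1 - h) / D))) := by
      refine integral_mono_on hy (hint _ _) ((hc1.add hc2).intervalIntegrable _ _) ?_
      intro h _
      rw [hε]
      simp only
      rcases min_choice K ((y1 - h) / D) with hm | hm
      · rw [hm]
        have : 0 ≤ A * Real.exp (-2 * ((y1 - h) / D)) := by positivity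
        linarith
      · rw [hm]
        have : 0 ≤ A * Real.exp (-2 * K) := by positivity
        linarith
    refine h4.trans ?_
    have hF : ∀ h : ℝ, HasDerivAt (fun h : ℝ => A * Real.exp (-2 * K) * h +
        A * (D / 2) * Real.exp (-2 * ((y1 - h) / D)))
        (A * Real.exp (-2 * K) + A * Real.exp (-2 * ((y1 - h) / D))) h := by
      intro h
      have h5 : HasDerivAt (fun h : ℝ => -2 * ((y1 - h) / D)) (2 / D) h := by
        have h6 := (((hasDerivAt_const h y1).sub (hasDerivAt_id h)).div_const D).const_mul (-2)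
        refine h6.congr_deriv ?_
        field_simp
        ring
      have h7 := ((hasDerivAt_id h).const_mul (A * Real.exp (-2 * K))).add
        ((h5.exp).const_mul (A * (D / 2)))
      refine h7.congr_deriv ?_
      field_simp
    rw [integral_eq_sub_of_hasDerivAt (fun h _ => hF h) ((hc1.add hc2).intervalIntegrable _ _)]
    have h8 : -2 * ((y1 - y) / D) = -2 * Y0 := by rw [hyd]; field_simp; ring
    rw [h8, mul_zero, zero_add]
    have h9 : 0 ≤ A * (D / 2) * Real.exp (-2 * ((y1 - 0) / D)) := by positivity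
    have h10 : A * Real.exp (-2 * K) * y ≤ A * y1 * Real.exp (-2 * K) := by
      have : y ≤ y1 := by rw [hyd]; nlinarith
      have h11 := mul_le_mul_of_nonneg_left this (by positivity : 0 ≤ A * Real.exp (-2 * K))
      linarith
    have h12 : A * (D / 2) * Real.exp (-2 * Y0) ≤ A * D * Real.exp (-2 * Y0) := by
      have h13 : 0 ≤ A * (D / 2) * Real.exp (-2 * Y0) := by positivity
      linarith
    linarith
  have h14 := mul_le_mul_of_nonneg_left hty hρ.le
  have h15 : A * (ρ + D) * Real.exp (-2 * Y0) = ρ * (A * Real.exp (-2 * Y0)) +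
    A * D * Real.exp (-2 * Y0) := by ring
  linarith

/-- **the `w^2`-coefficient** of a function with `‖l w‖ ≤ B ‖w‖^2` -/
theorem coef_le {l : ℂ → ℂ} {a : ℂ} {B r : ℝ} (hr : 0 < r)
    (hl : ∀ w : ℂ, ‖w‖ ≤ r → ‖l w‖ ≤ B * ‖w‖ ^ 2)
    (ha : Tendsto (fun w => l w / w ^ 2) (𝓝[≠] 0) (𝓝 a)) : ‖a‖ ≤ B := by
  have h1 : Tendsto (fun w => ‖l w / w ^ 2‖) (𝓝[≠] 0) (𝓝 ‖a‖) := ha.norm
  refine le_of_tendsto h1 ?_
  have h2 : ∀ᶠ w in 𝓝[≠] (0 : ℂ), ‖w‖ ≤ r := by
    have : ∀ᶠ w in 𝓝 (0 : ℂ), ‖w‖ ≤ r := by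
      filter_upwards [Metric.ball_mem_nhds (0 : ℂ) hr] with w hw
      exact (mem_ball_zero_iff.1 hw).le
    exact this.filter_mono nhdsWithin_le_nhds
  filter_upwards [h2, self_mem_nhdsWithin] with w hw hw0
  have h3 : 0 < ‖w‖ := norm_pos_iff.2 hw0
  rw [norm_div, norm_pow, div_le_iff₀ (by positivity)]
  exact hl w hw

end Vale.Agent.P097.H710
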