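import Vale.Agent.P097.H531.CD.Defs
import Vale.Agent.P097.H710.Start
import Vale.Agent.P097.H456.D.D1

/-!
# P097 / case [d]: Row S (start)
-/

set_option linter.all false

open Complex Metric Filter Topology Set MeasureTheory intervalIntegral

namespace Vale.Agent.P097.H710

open Vale.Agent.P097 Vale.Agent.P097.CD Vale.Agent.P097.H456.D1

variable {F q : ℂ → ℂ} {y ρ : ℝ} {A P θ : ℂ × ℂ → ℂ}

theorem mem_Tb {y ρ : ℝ} {t w : ℂ} : (t, w) ∈ Tb y ρ ↔ |t.im| < y ∧ ‖w‖ < ρ := Iff.rfl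

theorem half_im (t w : ℂ) : |(t + w / 2).im| ≤ |t.im| + ‖w‖ / 2 ∧
    |(t - w / 2).im| ≤ |t.im| + ‖w‖ / 2 := by
  have h1 : |(w / 2).im| ≤ ‖w‖ / 2 := by
    refine (abs_im_le_norm _).trans ?_
    rw [norm_div]
    norm_num
  constructor
  · rw [add_im]
    exact (abs_add_le _ _).trans (by linarith)
  · rw [sub_im]
    exact (abs_sub _ _).trans (by linarith)

/-- `σ` is in the class `Sg` -/
theorem sg_of (hρ : 0 < ρ) (H : Po F q y ρ A P θ) {t : ℂ} (ht : |t.im| < y - 2 * ρ) :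
    Sg ρ (fun w => θ (t + w / 2, w) - θ (t - w / 2, w)) ∧
      ∀ w ∈ ball (0 : ℂ) ρ, (θ (t + -w / 2, -w) - θ (t - -w / 2, -w)) =
        - (θ (t + w / 2, w) - θ (t - w / 2, w)) := by
  have hm : ∀ w : ℂ, ‖w‖ < ρ → (t + w / 2, w) ∈ Tb (y - ρ) ρ ∧ (t - w / 2, w) ∈ Tb (y - ρ) ρ := by
    intro w hw
    obtain ⟨h1, h2⟩ := half_im t w
    exact ⟨⟨by linarith, hw⟩, ⟨by linarith, hw⟩⟩
  have hd : ∀ w ∈ ball (0 : ℂ) ρ, DifferentiableAt ℂ
      (fun w => θ (t + w / 2, w) - θ (t - w / 2, w)) w := by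
    intro w hw
    rw [mem_ball_zero_iff] at hw
    obtain ⟨h1, h2⟩ := hm w hw
    have p1 : DifferentiableAt ℂ (fun w : ℂ => ((t + w / 2, w) : ℂ × ℂ)) w := by fun_prop
    have p2 : DifferentiableAt ℂ (fun w : ℂ => ((t - w / 2, w) : ℂ × ℂ)) w := by fun_prop
    exact ((H.an _ h1).differentiableAt.comp (f := fun w : ℂ => ((t + w / 2, w) : ℂ × ℂ)) w p1).sub
      ((H.an _ h2).differentiableAt.comp (f := fun w : ℂ => ((t - w / 2, w) : ℂ × ℂ)) w p2)
  refine ⟨⟨hρ, fun w hw => (hd w hw).differentiableWithinAt, ?_, ?_, ?_, ?_, ?_⟩, ?_⟩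
  · simp
  · -- the derivative at `0`
    have h0 : (t, (0 : ℂ)) ∈ Tb (y - ρ) ρ := ⟨by linarith, by simpa using hρ⟩
    have hθ := (H.an _ h0).differentiableAt.hasFDerivAt
    have p1 : HasDerivAt (fun w : ℂ => ((t + w / 2, w) : ℂ × ℂ)) (1 / 2, 1) 0 := by
      have a1 : HasDerivAt (fun w : ℂ => t + w / 2) (1 / 2) 0 :=
        ((hasDerivAt_id (0 : ℂ)).div_const 2).const_add t
      exact a1.prodMk (hasDerivAt_id (0 : ℂ))
    have p2 : HasDerivAt (fun w : ℂ => ((t - w / 2, w) : ℂ × ℂ)) (-(1 / 2), 1) 0 := by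
      have a1 : HasDerivAt (fun w : ℂ => t - w / 2) (-(1 / 2)) 0 :=
        ((hasDerivAt_id (0 : ℂ)).div_const 2).const_sub t
      exact a1.prodMk (hasDerivAt_id (0 : ℂ))
    have p3 : HasDerivAt (fun x : ℂ => ((x, 0) : ℂ × ℂ)) (1, 0) t :=
      (hasDerivAt_id t).prodMk (hasDerivAt_const t (0 : ℂ))
    have e1 : ((t + (0 : ℂ) / 2, (0 : ℂ)) : ℂ × ℂ) = (t, 0) := by simp
    have e2 : ((t - (0 : ℂ) / 2, (0 : ℂ)) : ℂ × ℂ) = (t, 0) := by simp
    have q1 : HasDerivAt (fun w : ℂ => θ (t + w / 2, w)) (fderiv ℂ θ (t, 0) (1 / 2, 1)) 0 :=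
      HasFDerivAt.comp_hasDerivAt_of_eq 0 hθ p1 e1.symm
    have q2 : HasDerivAt (fun w : ℂ => θ (t - w / 2, w)) (fderiv ℂ θ (t, 0) (-(1 / 2), 1)) 0 :=
      HasFDerivAt.comp_hasDerivAt_of_eq 0 hθ p2 e2.symm
    have q3 : HasDerivAt (fun x : ℂ => θ (x, 0)) (fderiv ℂ θ (t, 0) (1, 0)) t :=
      HasFDerivAt.comp_hasDerivAt_of_eq t hθ p3 rfl
    have q4 : HasDerivAt (fun x : ℂ => θ (x, 0)) 1 t := by
      refine (hasDerivAt_id t).congr_of_eventuallyEq ?_
      have hc : Continuous fun x : ℂ => |x.im| := by fun_prop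
      have : ∀ᶠ x in 𝓝 t, |x.im| < y - ρ := hc.continuousAt.eventually_lt_const (by linarith)
      filter_upwards [this] with x hx using H.z x hx
    have q5 := q3.unique q4
    have q6 : HasDerivAt (fun w : ℂ => θ (t + w / 2, w) - θ (t - w / 2, w))
        (fderiv ℂ θ (t, 0) (1 / 2, 1) - fderiv ℂ θ (t, 0) (-(1 / 2), 1)) 0 := q1.sub q2
    rw [q6.deriv, ← map_sub]
    have e3 : ((1 / 2, 1) : ℂ × ℂ) - (-(1 / 2), 1) = (1, 0) := by
      ext <;> simp
      norm_num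
    rw [e3, q5]
  · intro w hw hw0 h
    rw [mem_ball_zero_iff] at hw
    exact H.om t w ht hw hw0 0 (by rw [h]; simp)
  · intro w hw h
    rw [mem_ball_zero_iff] at hw
    by_cases hw0 : w = 0
    · rw [hw0] at h; simp at h
    · exact H.om t w ht hw hw0 1 (by rw [h]; simp)
  · intro w hw h
    rw [mem_ball_zero_iff] at hw
    by_cases hw0 : w = 0
    · rw [hw0] at h; simp at h
    · exact H.om t w ht hw hw0 (-1) (by rw [h]; simp)
  · intro w hw
    rw [mem_ball_zero_iff] at hw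
    obtain ⟨h1, h2⟩ := hm w hw
    have e1 : t + -w / 2 = t - w / 2 := by ring
    have e2 : t - -w / 2 = t + w / 2 := by ring
    rw [e1, e2, H.ev _ _ h1, H.ev _ _ h2]
    ring

/-- the constant -/
noncomputable def C2 : ℝ := 64 * (2 + |Real.log (2 * C1)|)

theorem C2_pos : 64 ≤ C2 := by
  have := abs_nonneg (Real.log (2 * C1))
  rw [C2]; linarith

/-- one step -/
theorem sg_step (hρ : 0 < ρ) (H : Po F q y ρ A P θ) {s : ℝ} (hs : 1 ≤ s)
    (hls : Real.log (1 / ρ) ≤ s) {t w : ℂ} (ht : |t.im| < y - 2 * ρ) (hw : ‖w‖ ≤ ρ / (C2 * s)) :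
    ‖θ (t + w / 2, w) - θ (t - w / 2, w) - w‖ ≤ C2 * s * (‖w‖ / ρ) ^ 2 * ‖w‖ := by
  obtain ⟨S, ho⟩ := sg_of hρ H ht
  obtain ⟨l, hl, hl0, hev, hle, hlb⟩ := S.exists_log2 (by
    intro w hw
    exact ho w hw)
  have hC := C2_pos
  have hCs : 64 ≤ C2 * s := by nlinarith
  have hC1 := one_le_C1
  have hw4 : ‖w‖ ≤ ρ / 4 := by
    refine hw.trans ?_
    apply div_le_div_of_nonneg_left hρ.le (by norm_num)
    linarith
  have hwb : w ∈ ball (0 : ℂ) ρ := by
    rw [mem_ball_zero_iff]; linarith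
  have h1 := hlb w hw4
  have h2 : 32 * (1 + Real.log (2 * C1 / ρ)) ≤ C2 / 2 * s := by
    have e : Real.log (2 * C1 / ρ) = Real.log (2 * C1) + Real.log (1 / ρ) := by
      rw [← Real.log_mul (by positivity) (by positivity)]
      congr 1
      ring
    rw [e, C2]
    have h3 := le_abs_self (Real.log (2 * C1))
    have h4 := abs_nonneg (Real.log (2 * C1))
    nlinarith
  have hx0 : 0 ≤ (‖w‖ / ρ) ^ 2 := by positivity
  have h3 : ‖l w‖ ≤ C2 / 2 * s * (‖w‖ / ρ) ^ 2 :=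
    h1.trans (mul_le_mul_of_nonneg_right h2 hx0)
  have h4 : C2 / 2 * s * (‖w‖ / ρ) ^ 2 ≤ 1 := by
    have h5 : ‖w‖ / ρ ≤ 1 / (C2 * s) := by
      rw [div_le_iff₀ hρ]
      refine hw.trans (le_of_eq ?_)
      ring
    have h6 : (‖w‖ / ρ) ^ 2 ≤ (1 / (C2 * s)) ^ 2 := pow_le_pow_left₀ (by positivity) h5 2
    have h7 : (C2 * s) * (1 / (C2 * s)) = 1 := by
      have : C2 * s ≠ 0 := by positivity
      field_simp
    have h8 : 1 / (C2 * s) ≤ 1 := by
      rw [div_le_one (by positivity)]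
      linarith
    have h9 : 0 ≤ 1 / (C2 * s) := by positivity
    calc C2 / 2 * s * (‖w‖ / ρ) ^ 2 ≤ C2 / 2 * s * (1 / (C2 * s)) ^ 2 :=
          mul_le_mul_of_nonneg_left h6 (by positivity)
      _ = ((C2 * s) * (1 / (C2 * s))) * (1 / (C2 * s)) / 2 := by ring
      _ = (1 / (C2 * s)) / 2 := by rw [h7, one_mul]
      _ ≤ 1 := by linarith
  have h5 : ‖exp (l w) - 1‖ ≤ 2 * ‖l w‖ := Complex.norm_exp_sub_one_le (h3.trans h4)
  have h6 : θ (t + w / 2, w) - θ (t - w / 2, w) - w = w * (exp (l w) - 1) := by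
    rw [hle w hwb]; ring
  rw [h6, norm_mul]
  calc ‖w‖ * ‖exp (l w) - 1‖ ≤ ‖w‖ * (2 * (C2 / 2 * s * (‖w‖ / ρ) ^ 2)) := by
        refine mul_le_mul_of_nonneg_left (h5.trans ?_) (norm_nonneg _)
        linarith
    _ = _ := by ring

/-- **Row S** -/
theorem rowS : RowS := by
  refine ⟨24 * C2, by linarith [C2_pos], ?_⟩
  intro F q y ρ C₁ s A P θ H hLo hρ hρ1 hy hs hls hys hC₁ t w ht hw
  have hC := C2_pos
  have hs0 : 0 < s := by linarith
  have hwC : ‖w‖ ≤ ρ / (C2 * s) := by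
    refine hw.trans ?_
    apply div_le_div_of_nonneg_left hρ.le (by positivity)
    nlinarith
  refine ⟨?_, ?_⟩
  · refine (sg_step hρ H hs hls (by linarith) hwC).trans ?_
    have h1 : 0 ≤ s * (‖w‖ / ρ) ^ 2 * ‖w‖ := by positivity
    nlinarith
  · by_cases hw0 : w = 0
    · rw [hw0, H.z t (by linarith)]
      simp
    have hw1 : 0 < ‖w‖ := norm_pos_iff.2 hw0
    set ρ₂ : ℝ := 2 * ‖w‖ with hρ₂
    have hρ₂0 : 0 < ρ₂ := by positivity
    have h24 : ‖w‖ * (24 * C2 * s) ≤ ρ := by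
      rwa [le_div_iff₀ (by positivity)] at hw
    have hρ₂C : ρ₂ ≤ ρ / (C2 * s) := by
      rw [le_div_iff₀ (by positivity)]
      have : 0 ≤ ‖w‖ * (C2 * s) := by positivity
      nlinarith
    have hρ₂ρ : ρ₂ < ρ := by
      refine hρ₂C.trans_lt ?_
      have h64 : 64 ≤ C2 * s := by nlinarith
      rw [div_lt_iff₀ (by positivity)]
      nlinarith
    set ε : ℝ := C2 * s * (ρ₂ / ρ) ^ 2 with hε
    have hε0 : 0 ≤ ε := by positivity
    have key := start (T := fun t w => θ (t, w) - t) (y := |t.im|) (ρ := ρ₂) (τ0 := C₁ * ρ₂)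
      (ε := fun _ => ε) hρ₂0 (monotoneOn_const) hε0 (by positivity) ?_ ?_ ?_ (t := t) (w := w)
      le_rfl (by rw [hρ₂]; linarith)
    · rw [intervalIntegral.integral_const, smul_eq_mul, sub_zero] at key
      refine key.trans ?_
      have h1 : ρ₂ * ε + |t.im| * ε ≤ s * ε := by
        rw [← add_mul]
        refine mul_le_mul_of_nonneg_right ?_ hε0
        linarith
      have h2 : s * ε = 4 * C2 * s ^ 2 * (‖w‖ / ρ) ^ 2 := by
        rw [hε, hρ₂]; ring
      have h3 : 0 ≤ s ^ 2 * (‖w‖ / ρ) ^ 2 := by positivity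
      have h4 : 0 ≤ C₁ * ‖w‖ := by positivity
      have h5 : 3 * (C₁ * ρ₂) ≤ 24 * C2 * C₁ * ‖w‖ := by
        rw [hρ₂]; nlinarith
      have h6 : 3 * (4 * C2 * s ^ 2 * (‖w‖ / ρ) ^ 2) ≤ 24 * C2 * s ^ 2 * (‖w‖ / ρ) ^ 2 := by
        nlinarith
      linarith
    · intro t' ht'
      apply DifferentiableOn.diffContOnCl
      rw [closure_ball _ hρ₂0.ne']
      intro w' hw'
      rw [mem_closedBall_zero_iff] at hw'
      have hm : (t', w') ∈ Tb (y - ρ) ρ := ⟨by linarith, hw'.trans_lt hρ₂ρ⟩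
      have p1 : DifferentiableAt ℂ (fun w : ℂ => ((t', w) : ℂ × ℂ)) w' := by fun_prop
      exact (((H.an _ hm).differentiableAt.comp (f := fun w : ℂ => ((t', w) : ℂ × ℂ)) w'
        p1).sub_const t').differentiableWithinAt
    · intro t' w' hw' h1 h2
      have hmid : |(t' + w' / 2).im| < y - 2 * ρ := by
        have e : (t' + w' / 2).im = (t'.im + (t' + w').im) / 2 := by
          simp [add_im]; ring
        rw [e, abs_div, abs_two]
        have := abs_add_le t'.im (t' + w').im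
        linarith
      have h3 := sg_step hρ H hs hls hmid (hw'.trans_le hρ₂C)
      have e1 : t' + w' / 2 + w' / 2 = t' + w' := by ring
      have e2 : t' + w' / 2 - w' / 2 = t' := by ring
      rw [e1, e2, hw'] at h3
      have e3 : θ (t' + w', w') - (t' + w') - (θ (t', w') - t') =
          θ (t' + w', w') - θ (t', w') - w' := by ring
      rw [e3]
      refine h3.trans (le_of_eq ?_)
      rw [hε]; ring
    · intro t' w' hw' h1 h2
      have := hLo t' w' (by rw [hw']; exact h1) (by rw [hw']; exact hρ₂ρ)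
      rwa [hw'] at this

end Vale.Agent.P097.H710
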