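import Vale.Agent.P097.H710.Link
import Vale.Agent.P097.H710.Start
import Vale.Agent.P097.H456.D.D1

/-!
# P097, case [d], row D1': `|Q + Φ' ^ 2 / 8 - k| ≤ 480 (1 + log (2 C₁ / r)) / r ^ 2`
-/

set_option linter.all false

open Complex Metric Filter Topology Set

namespace Vale.Agent.P097.H710

open Vale.Agent.P097 Vale.Agent.P097.SC Vale.Agent.P097.H133.Tm Vale.Agent.P097.NZ
open Vale.Agent.P097.H456.D1

variable {Φ q Q : ℂ → ℂ} {c : ℂ}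

/-- a small box -/
theorem exists_Bx {Ω : Set ℂ} (hΩ : IsOpen Ω) (hc : c ≠ 0) (crv : ∀ x ∈ Ω, Crv Φ q c x)
    (aQ : ∀ x ∈ Ω, AnalyticAt ℂ Q x) (eQ : ∀ x ∈ Ω, deriv (deriv (deriv Φ)) x = Q x * deriv Φ x)
    {x : ℂ} (hx : x ∈ Ω) : ∃ V : Set ℂ, ∃ A B M : ℝ, x ∈ V ∧ Bx Φ q Q c V A B M := by
  have h1 := (crv x hx).aΦ.deriv.continuousAt.norm.eventually_lt_const (lt_add_one _)
  have h2 := (crv x hx).aΦ.deriv.deriv.continuousAt.norm.eventually_lt_const (lt_add_one _)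
  have h3 := (aQ x hx).continuousAt.norm.eventually_lt_const (lt_add_one _)
  have h4 : ∀ᶠ y in 𝓝 x, y ∈ Ω := hΩ.mem_nhds hx
  obtain ⟨V, hV, hVo, hxV⟩ := _root_.eventually_nhds_iff.1 (((h1.and h2).and h3).and h4)
  refine ⟨V, ‖deriv Φ x‖ + 1, ‖deriv (deriv Φ) x‖ + 1, ‖Q x‖ + 1, hxV, ?_⟩
  exact ⟨hc, hVo, fun y hy => crv y (hV y hy).2, fun y hy => aQ y (hV y hy).2,
    fun y hy => eQ y (hV y hy).2, fun y hy => (hV y hy).1.1.1.le, fun y hy => (hV y hy).1.1.2.le,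
    fun y hy => (hV y hy).1.2.le⟩

/-- from `σ / w` to its logarithm -/
theorem log_coef {s l : ℂ → ℂ} {r B : ℝ} {a : ℂ} (hr : 0 < r) (hB : 0 ≤ B)
    (hs : ∀ w ∈ ball (0 : ℂ) r, s w = w * exp (l w)) (hl : ∀ w : ℂ, ‖w‖ ≤ r → ‖l w‖ ≤ B * ‖w‖ ^ 2)
    (ha : Tendsto (fun w : ℂ => (s w / w - 1) / w ^ 2) (𝓝[≠] 0) (𝓝 a)) : ‖a‖ ≤ B := by
  refine coef_le hr hl ?_
  have h1 : Tendsto (fun w : ℂ => (exp (l w) - 1 - l w) / w ^ 2) (𝓝[≠] 0) (𝓝 0) := by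
    have h2 : ∀ᶠ w in 𝓝[≠] (0 : ℂ), ‖(exp (l w) - 1 - l w) / w ^ 2‖ ≤ B ^ 2 * ‖w‖ ^ 2 := by
      have c1 : Continuous fun w : ℂ => B * ‖w‖ ^ 2 := by fun_prop
      have e1 : ∀ᶠ w in 𝓝 (0 : ℂ), B * ‖w‖ ^ 2 < 1 :=
        c1.continuousAt.eventually_lt_const (by simp)
      have e2 : ∀ᶠ w in 𝓝 (0 : ℂ), ‖w‖ ≤ r := by
        filter_upwards [Metric.ball_mem_nhds (0 : ℂ) hr] with w hw
        exact (mem_ball_zero_iff.1 hw).le
      filter_upwards [e1.filter_mono nhdsWithin_le_nhds, e2.filter_mono nhdsWithin_le_nhds,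
        ne_ev] with w h3 h4 h5
      have h6 := hl w h4
      have h7 : ‖exp (l w) - 1 - l w‖ ≤ ‖l w‖ ^ 2 :=
        norm_exp_sub_one_sub_id_le (h6.trans h3.le)
      have hw0 : 0 < ‖w‖ := norm_pos_iff.2 h5
      rw [norm_div, norm_pow, div_le_iff₀ (by positivity)]
      calc ‖exp (l w) - 1 - l w‖ ≤ ‖l w‖ ^ 2 := h7
        _ ≤ (B * ‖w‖ ^ 2) ^ 2 := pow_le_pow_left₀ (norm_nonneg _) h6 2
        _ = B ^ 2 * ‖w‖ ^ 2 * ‖w‖ ^ 2 := by ring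
    have h3 : Tendsto (fun w : ℂ => B ^ 2 * ‖w‖ ^ 2) (𝓝[≠] 0) (𝓝 0) := by
      have c1 : Continuous fun w : ℂ => B ^ 2 * ‖w‖ ^ 2 := by fun_prop
      have := c1.tendsto 0
      simp only [norm_zero] at this
      rw [zero_pow (by norm_num), mul_zero] at this
      exact this.mono_left nhdsWithin_le_nhds
    exact squeeze_zero_norm' h2 h3
  have h4 := ha.sub h1
  rw [sub_zero] at h4
  refine h4.congr' ?_
  have e3 : ∀ᶠ w in 𝓝 (0 : ℂ), w ∈ ball (0 : ℂ) r := Metric.ball_mem_nhds (0 : ℂ) hr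
  filter_upwards [e3.filter_mono nhdsWithin_le_nhds, ne_ev] with w h5 h6
  rw [hs w h5]
  field_simp
  ring

/-- **the bound of `E = Q + Φ' ^ 2 / 8`** -/
theorem E_bound {Ω : Set ℂ} (hΩ : IsOpen Ω) (hpc : IsPreconnected Ω) (hc : c ≠ 0)
    (crv : ∀ x ∈ Ω, Crv Φ q c x) (aQ : ∀ x ∈ Ω, AnalyticAt ℂ Q x)
    (eQ : ∀ x ∈ Ω, deriv (deriv (deriv Φ)) x = Q x * deriv Φ x)
    {v : ℂ × ℂ → ℂ × ℂ} (av : ∀ t ∈ Ω, AnalyticAt ℂ v (t, 0)) (v0 : ∀ t ∈ Ω, v (t, 0) = (t, 0))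
    (vs : ∀ t ∈ Ω, ∀ᶠ u in 𝓝 ((t, 0) : ℂ × ℂ), v (u.1, -u.2) = ((v u).1, -(v u).2))
    (law : ∀ t ∈ Ω, ∀ᶠ u in 𝓝 ((t, 0) : ℂ × ℂ), T1 Φ q c (v u) = (v (u.1 + u.2, u.2)).1)
    {r : ℂ → ℝ} {σ : ℂ → ℂ → ℂ}
    (hσ : ∀ t ∈ Ω, ∀ᶠ w in 𝓝 (0 : ℂ), σ t w = (v (t + w / 2, w)).1 - (v (t - w / 2, w)).1)
    (hS : ∀ t ∈ Ω, Sg (r t) (σ t))
    (ho : ∀ t ∈ Ω, ∀ w ∈ ball (0 : ℂ) (r t), σ t (-w) = - σ t w) :
    ∃ k : ℂ, ∀ t ∈ Ω, ‖Q t + deriv Φ t ^ 2 / 8 - k‖ ≤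
      480 * (1 + Real.log (2 * C1 / r t)) / (r t) ^ 2 := by
  rcases Ω.eq_empty_or_nonempty with he | ⟨t₀, ht₀⟩
  · exact ⟨0, fun t ht => by rw [he] at ht; exact absurd ht (notMem_empty t)⟩
  set lam : ℂ → ℂ := fun t => limUnder (𝓝[≠] (0 : ℂ))
    (fun w : ℂ => (((v (t + w / 2, w)).1 - (v (t - w / 2, w)).1) / w - 1) / w ^ 2) with hlam
  have hkey : ∀ t ∈ Ω, HasDerivAt lam ((deriv Q t + deriv Φ t * deriv (deriv Φ) t / 4) / 15) t ∧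
      Tendsto (fun w : ℂ => (((v (t + w / 2, w)).1 - (v (t - w / 2, w)).1) / w - 1) / w ^ 2)
        (𝓝[≠] 0) (𝓝 (lam t)) := by
    intro t ht
    obtain ⟨V, A, B, M, hxV, T⟩ := exists_Bx hΩ hc crv aQ eQ ht
    have hv0 : ∀ᶠ t' in 𝓝 t, v (t', 0) = (t', 0) := by
      filter_upwards [hΩ.mem_nhds ht] with t' ht' using v0 t' ht'
    obtain ⟨lam', h1⟩ := link T hxV (av t ht) hv0 (vs t ht) (law t ht)
    have h2 : ∀ᶠ t' in 𝓝 t, lam t' = lam' t' := by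
      filter_upwards [h1] with t' h3
      exact h3.2.limUnder_eq
    have h4 := h1.self_of_nhds
    refine ⟨h4.1.congr_of_eventuallyEq h2, ?_⟩
    rw [h2.self_of_nhds]
    exact h4.2
  -- the difference is constant
  have hconst : ∀ t ∈ Ω, HasDerivAt (fun t => Q t + deriv Φ t ^ 2 / 8 - 15 * lam t) 0 t := by
    intro t ht
    have h1 := (aQ t ht).differentiableAt.hasDerivAt
    have h2 := (crv t ht).aΦ.deriv.differentiableAt.hasDerivAt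
    have h3 := (h1.add ((h2.pow 2).div_const 8)).sub ((hkey t ht).1.const_mul 15)
    refine h3.congr_deriv ?_
    simp only [Nat.cast_ofNat, Nat.add_one_sub_one, pow_one]
    ring
  refine ⟨Q t₀ + deriv Φ t₀ ^ 2 / 8 - 15 * lam t₀, fun t ht => ?_⟩
  have h1 : (fun t => Q t + deriv Φ t ^ 2 / 8 - 15 * lam t) t =
      (fun t => Q t + deriv Φ t ^ 2 / 8 - 15 * lam t) t₀ :=
    hΩ.is_const_of_deriv_eq_zero hpc
      (fun x hx => (hconst x hx).differentiableAt.differentiableWithinAt)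
      (fun x hx => (hconst x hx).deriv) ht ht₀
  simp only at h1
  have h2 : Q t + deriv Φ t ^ 2 / 8 - (Q t₀ + deriv Φ t₀ ^ 2 / 8 - 15 * lam t₀) = 15 * lam t := by
    linear_combination h1
  rw [h2, norm_mul]
  have h3 : ‖(15 : ℂ)‖ = 15 := by norm_num
  rw [h3]
  -- the bound of `lam t`
  have hr := (hS t ht).r0
  obtain ⟨l, hl, hl0, hle, hls, hlb⟩ := (hS t ht).exists_log2 (ho t ht)
  have hM0 : 0 ≤ 1 + Real.log (2 * C1 / r t) := by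
    by_contra hcn
    push Not at hcn
    have h1 := hlb ((r t / 4 : ℝ) : ℂ) (by
      rw [Complex.norm_real, Real.norm_eq_abs, abs_of_pos (by positivity)])
    have h2 : 0 < (‖((r t / 4 : ℝ) : ℂ)‖ / r t) ^ 2 := by
      rw [Complex.norm_real, Real.norm_eq_abs, abs_of_pos (by positivity)]
      positivity
    have h3 := norm_nonneg (l ((r t / 4 : ℝ) : ℂ))
    nlinarith
  have h4 : ‖lam t‖ ≤ 32 * (1 + Real.log (2 * C1 / r t)) / (r t) ^ 2 := by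
    refine log_coef (s := σ t) (l := l) (r := r t / 4) (by positivity) (by positivity) ?_ ?_ ?_
    · intro w hw
      exact hls w (ball_subset_ball (by linarith) hw)
    · intro w hw
      refine (hlb w hw).trans (le_of_eq ?_)
      rw [div_pow]
      ring
    · refine (hkey t ht).2.congr' ?_
      filter_upwards [(hσ t ht).filter_mono nhdsWithin_le_nhds] with w hw
      rw [hw]
  calc 15 * ‖lam t‖ ≤ 15 * (32 * (1 + Real.log (2 * C1 / r t)) / (r t) ^ 2) :=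
        mul_le_mul_of_nonneg_left h4 (by norm_num)
    _ = _ := by ring

end Vale.Agent.P097.H710
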