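import Vale.Agent.P097.H710.Tay2
import Vale.Agent.P097.H133.Tm4
import Vale.Agent.P097.H128.NZ.TC

/-!
# P097, case [d], row D1' (link)

For the phase map `v (t, w) = (θ, η)` of the vertex at time `t` on the leaf `w`, the
`w ^ 2`-coefficient `lam t` of `(θ (t + w/2, w) - θ (t - w/2, w)) / w` satisfies
`15 lam' = (Q + Φ' ^ 2 / 8)'`.
-/

set_option linter.all false

open Complex Metric Filter Topology Set

namespace Vale.Agent.P097.H710

open Vale.Agent.P097 Vale.Agent.P097.SC Vale.Agent.P097.H133.Tm Vale.Agent.P097.NZ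

variable {Φ q Q : ℂ → ℂ} {c : ℂ} {V : Set ℂ} {A B M : ℝ}

/-- tail of a geometrically bounded power series -/
theorem tail_le {a : ℕ → ℂ} {C B : ℝ} {δ S : ℂ} (hB : 0 < B) (ha : ∀ k, ‖a k‖ ≤ C * B ^ k)
    (hs : HasSum (fun k : ℕ => a k * δ ^ k) S) (hδ : B * ‖δ‖ ≤ 1 / 2) (n : ℕ) :
    ‖S - ∑ k ∈ Finset.range n, a k * δ ^ k‖ ≤ 2 * C * (B * ‖δ‖) ^ n := by
  have h1 : HasSum (fun k : ℕ => a (k + n) * δ ^ (k + n)) (S - ∑ k ∈ Finset.range n, a k * δ ^ k) :=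
    (hasSum_nat_add_iff' n).2 hs
  have hC : 0 ≤ C := by
    have := (norm_nonneg _).trans (ha 0)
    simpa using this
  have hx0 : 0 ≤ B * ‖δ‖ := by positivity
  have h2 : HasSum (fun k : ℕ => C * (B * ‖δ‖) ^ n * (B * ‖δ‖) ^ k)
      (C * (B * ‖δ‖) ^ n * (1 - B * ‖δ‖)⁻¹) :=
    (hasSum_geometric_of_lt_one hx0 (by linarith)).mul_left _
  have h3 := h1.norm_le_of_bounded h2 (fun k => by
    rw [norm_mul, norm_pow]
    calc ‖a (k + n)‖ * ‖δ‖ ^ (k + n) ≤ C * B ^ (k + n) * ‖δ‖ ^ (k + n) :=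
          mul_le_mul_of_nonneg_right (ha _) (by positivity)
      _ = C * (B * ‖δ‖) ^ n * (B * ‖δ‖) ^ k := by rw [mul_pow, mul_pow]; ring)
  refine h3.trans ?_
  have h4 : (1 - B * ‖δ‖)⁻¹ ≤ 2 := by
    rw [inv_le_comm₀ (by linarith) (by norm_num)]
    linarith
  calc C * (B * ‖δ‖) ^ n * (1 - B * ‖δ‖)⁻¹ ≤ C * (B * ‖δ‖) ^ n * 2 :=
        mul_le_mul_of_nonneg_left h4 (by positivity)
    _ = _ := by ring

/-- uniform Taylor expansion of order 5 in the second variable -/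
theorem rem5 {f : ℂ × ℂ → ℂ} {z : ℂ} (hf : AnalyticAt ℂ f (z, 0)) :
    ∃ K : ℝ, 0 ≤ K ∧ ∀ᶠ p in 𝓝 ((z, 0) : ℂ × ℂ),
      ‖f p - (tc f 0 p.1 + tc f 1 p.1 * p.2 + tc f 2 p.1 * p.2 ^ 2 + tc f 3 p.1 * p.2 ^ 3 +
        tc f 4 p.1 * p.2 ^ 4)‖ ≤ K * ‖p.2‖ ^ 5 := by
  obtain ⟨C, B, r, hB, hr, hrB, h⟩ := tc_bound hf
  have hC : 0 ≤ C := by
    have := (norm_nonneg _).trans ((h z (mem_ball_self hr)).1 0)
    simpa using this
  refine ⟨2 * C * B ^ 5, by positivity, ?_⟩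
  refine eventually_of_polydisc (s := r / 2) hr (by positivity) ?_
  intro z' hz' δ hδ
  rw [mem_ball_zero_iff] at hδ
  obtain ⟨h1, h2⟩ := h z' hz'
  have h3 := h2 δ (by rw [mem_ball_zero_iff]; linarith)
  have h4 := tail_le hB h1 h3 (by nlinarith [norm_nonneg δ]) 5
  have e : ∑ k ∈ Finset.range 5, tc f k z' * δ ^ k = tc f 0 z' + tc f 1 z' * δ +
      tc f 2 z' * δ ^ 2 + tc f 3 z' * δ ^ 3 + tc f 4 z' * δ ^ 4 := by
    simp [Finset.sum_range_succ]
  rw [e] at h4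
  refine h4.trans (le_of_eq ?_)
  rw [mul_pow]; ring

/-- odd Taylor coefficients of an even function vanish -/
theorem tc_odd {f : ℂ × ℂ → ℂ} {z : ℂ} (h : ∀ᶠ δ in 𝓝 (0 : ℂ), f (z, -δ) = f (z, δ)) {k : ℕ}
    (hk : Odd k) : tc f k z = 0 := by
  have h1 : iteratedDeriv k (fun δ => f (z, -δ)) 0 = iteratedDeriv k (fun δ => f (z, δ)) 0 :=
    Filter.EventuallyEq.iteratedDeriv_eq k h
  have h2 := iteratedDeriv_comp_neg k (fun δ => f (z, δ)) 0
  rw [h1, neg_zero, hk.neg_one_pow, neg_one_smul] at h2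
  have h3 : iteratedDeriv k (fun δ => f (z, δ)) 0 = 0 := by
    have h4 : 2 * iteratedDeriv k (fun δ => f (z, δ)) 0 = 0 := by linear_combination h2
    exact (mul_eq_zero.1 h4).resolve_left two_ne_zero
  rw [tc, h3, zero_div]

/-- the remainder of the symmetrised next vertex -/
noncomputable def SS (Φ q Q : ℂ → ℂ) (c : ℂ) (p : ℂ × ℂ) : ℂ :=
  T1 Φ q c p + T1 Φ q c (p.1, -p.2) - 2 * p.1 -
    16 / 15 * (deriv Q p.1 + deriv Φ p.1 * deriv (deriv Φ) p.1 / 4) * p.2 ^ 4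

theorem Ad_axis (T : Bx Φ q Q c V A B M) {θ : ℂ} (hθ : θ ∈ V) : Ad V A B M (θ, 0) := by
  refine ⟨?_, ?_, ?_⟩
  · simpa using hθ
  · simp
  · simp

theorem SS_an (T : Bx Φ q Q c V A B M) {θ : ℂ} (hθ : θ ∈ V) : AnalyticAt ℂ (SS Φ q Q c) (θ, 0) := by
  have h1 : AnalyticAt ℂ (T1 Φ q c) (θ, 0) := T1_an T (Ad_axis T hθ)
  have h2 : AnalyticAt ℂ (fun p : ℂ × ℂ => (p.1, -p.2)) (θ, 0) :=
    analyticAt_fst.prod analyticAt_snd.neg
  have h3 : AnalyticAt ℂ (fun p : ℂ × ℂ => T1 Φ q c (p.1, -p.2)) (θ, 0) := by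
    have e : ((θ, 0) : ℂ × ℂ).1 = θ := rfl
    refine AnalyticAt.comp_of_eq (g := T1 Φ q c) (f := fun p : ℂ × ℂ => (p.1, -p.2)) h1 h2 ?_
    simp
  have hQ := (T.aQ θ hθ).deriv
  have hg := (T.crv θ hθ).aΦ.deriv
  have hg' := (T.crv θ hθ).aΦ.deriv.deriv
  have f1 : ∀ {F : ℂ → ℂ}, AnalyticAt ℂ F θ → AnalyticAt ℂ (fun p : ℂ × ℂ => F p.1) (θ, 0) :=
    fun {F} hF => AnalyticAt.comp_of_eq (g := F) (f := fun p : ℂ × ℂ => p.1) hF analyticAt_fst rfl
  have h4 : AnalyticAt ℂ (fun p : ℂ × ℂ => 16 / 15 * (deriv Q p.1 +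
      deriv Φ p.1 * deriv (deriv Φ) p.1 / 4) * p.2 ^ 4) (θ, 0) :=
    (analyticAt_const.mul ((f1 hQ).add (((f1 hg).mul (f1 hg')).div_const))).mul
      (analyticAt_snd.pow 4)
  exact ((h1.add h3).sub (analyticAt_const.mul analyticAt_fst)).sub h4

theorem SS_bd (T : Bx Φ q Q c V A B M) {x₀ : ℂ} (hx : x₀ ∈ V) :
    ∃ K : ℝ, 0 ≤ K ∧ ∀ᶠ p in 𝓝 ((x₀, 0) : ℂ × ℂ), ‖SS Φ q Q c p‖ ≤ K * ‖p.2‖ ^ 5 := by
  have h0 := SS_an T hx
  have hV : ∀ᶠ p in 𝓝 ((x₀, 0) : ℂ × ℂ), p.1 ∈ V := by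
    have : Continuous (fun p : ℂ × ℂ => p.1) := continuous_fst
    exact this.continuousAt.eventually_mem (T.op.mem_nhds hx)
  have h1 : ∀ᶠ p in 𝓝 ((x₀, 0) : ℂ × ℂ), (AnalyticAt ℂ (SS Φ q Q c) p ∧
      ‖SS Φ q Q c p‖ < ‖SS Φ q Q c (x₀, 0)‖ + 1) ∧ p.1 ∈ V := by
    filter_upwards [h0.eventually_analyticAt,
      h0.continuousAt.norm.eventually_lt_const (lt_add_one _), hV] with p h1 h2 h3
    exact ⟨⟨h1, h2⟩, h3⟩
  obtain ⟨r, hr, h2⟩ := exists_polydisc h1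
  set K0 := ‖SS Φ q Q c (x₀, 0)‖ + 1 with hK0
  have hK0p : 0 < K0 := by positivity
  refine ⟨K0 / r ^ 5, by positivity, ?_⟩
  refine eventually_of_polydisc hr hr ?_
  intro θ hθ δ hδ
  have hd : DifferentiableOn ℂ (fun δ => SS Φ q Q c (θ, δ)) (ball 0 r) := by
    intro δ hδ
    exact (analyticAt_pair2 (h2 θ hθ δ hδ).1.1).differentiableAt.differentiableWithinAt
  have hθV : θ ∈ V := (h2 θ hθ 0 (mem_ball_self hr)).2
  have e0 : SS Φ q Q c (θ, 0) = 0 := by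
    rw [SS]
    simp only [neg_zero]
    rw [T1_axis]
    ring
  obtain ⟨L, hL, h3⟩ := T1_sym T hθV
  have h4 : ∀ᶠ η in 𝓝 (0 : ℂ), ‖SS Φ q Q c (θ, η)‖ ≤ L * ‖η‖ ^ 5 := by
    rw [eventually_nhdsWithin_iff] at h3
    filter_upwards [h3] with η h3
    by_cases hη : η = 0
    · rw [hη, e0]
      simp
    · exact h3 hη
  have h5 := dist_le_mul_div_pow_of_mapsTo_ball_of_isLittleO (f := fun δ => SS Φ q Q c (θ, δ))
    (c := 0) (z := δ) (R₁ := r) (R₂ := K0) (n := 4) hd (fun x hx => by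
      rw [mem_closedBall, e0, dist_zero_right]
      exact (h2 θ hθ x hx).1.2.le) (by
      have h6 : (fun η : ℂ => SS Φ q Q c (θ, η) - SS Φ q Q c (θ, 0)) =O[𝓝 0] fun η => ‖η‖ ^ 5 := by
        refine Asymptotics.IsBigO.of_bound L ?_
        filter_upwards [h4] with η hη
        rw [e0, sub_zero, norm_pow, norm_norm]
        exact hη
      refine h6.trans_isLittleO ?_
      simp only [sub_zero]
      have h7 : (fun η : ℂ => ‖η‖ ^ 5) =o[𝓝 0] fun η : ℂ => ‖η‖ ^ 4 := by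
        have h8 : (fun x : ℝ => x ^ 5) =o[𝓝 0] fun x : ℝ => x ^ 4 :=
          Asymptotics.isLittleO_pow_pow (by norm_num)
        have h9 : Tendsto (fun η : ℂ => ‖η‖) (𝓝 0) (𝓝 0) := by
          have := (continuous_norm (E := ℂ)).tendsto 0
          rwa [norm_zero] at this
        exact h8.comp_tendsto h9
      exact h7) hδ
  simp only [e0, dist_zero_right] at h5
  refine h5.trans (le_of_eq ?_)
  rw [div_pow]
  ring

/-- **LINK**: the `w ^ 2`-coefficient of `σ / w` -/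
theorem link (T : Bx Φ q Q c V A B M) {x₀ : ℂ} (hx : x₀ ∈ V) {v : ℂ × ℂ → ℂ × ℂ}
    (av : AnalyticAt ℂ v (x₀, 0)) (v0 : ∀ᶠ t in 𝓝 x₀, v (t, 0) = (t, 0))
    (vs : ∀ᶠ u in 𝓝 ((x₀, 0) : ℂ × ℂ), v (u.1, -u.2) = ((v u).1, -(v u).2))
    (law : ∀ᶠ u in 𝓝 ((x₀, 0) : ℂ × ℂ), T1 Φ q c (v u) = (v (u.1 + u.2, u.2)).1) :
    ∃ lam : ℂ → ℂ, ∀ᶠ t in 𝓝 x₀,
      HasDerivAt lam ((deriv Q t + deriv Φ t * deriv (deriv Φ) t / 4) / 15) t ∧
      Tendsto (fun w : ℂ => (((v (t + w / 2, w)).1 - (v (t - w / 2, w)).1) / w - 1) / w ^ 2)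
        (𝓝[≠] 0) (𝓝 (lam t)) := by
  set f : ℂ × ℂ → ℂ := fun u => (v u).1 with hf
  have af : AnalyticAt ℂ f (x₀, 0) := analyticAt_fst.comp_of_eq av rfl
  -- evenness
  have fev : ∀ᶠ u in 𝓝 ((x₀, 0) : ℂ × ℂ), f (u.1, -u.2) = f u := by
    filter_upwards [vs] with u hu
    simp only [hf, hu]
  obtain ⟨K, hK, h5⟩ := rem5 af
  have htc : ∀ᶠ t in 𝓝 x₀, tc f 0 t = t ∧ tc f 1 t = 0 ∧ tc f 3 t = 0 := by
    filter_upwards [v0, eventually_axis fev.eventually_nhds] with t h1 h2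
    have h3 : ∀ᶠ δ in 𝓝 (0 : ℂ), f (t, -δ) = f (t, δ) := by
      have hc : Tendsto (fun δ : ℂ => ((t, δ) : ℂ × ℂ)) (𝓝 0) (𝓝 (t, 0)) := by
        have : Continuous (fun δ : ℂ => ((t, δ) : ℂ × ℂ)) := by fun_prop
        exact this.tendsto 0
      exact hc.eventually h2
    refine ⟨?_, tc_odd h3 (by decide), tc_odd h3 (by decide)⟩
    rw [tc, iteratedDeriv_zero]
    simp only [hf, h1]
    simp
  -- the expansion
  have h6 : ∀ᶠ p in 𝓝 ((x₀, 0) : ℂ × ℂ),
      ‖f p - (p.1 + tc f 2 p.1 * p.2 ^ 2 + tc f 4 p.1 * p.2 ^ 4)‖ ≤ K * ‖p.2‖ ^ 5 := by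
    have hc : Tendsto (fun p : ℂ × ℂ => p.1) (𝓝 ((x₀, 0) : ℂ × ℂ)) (𝓝 x₀) :=
      (continuous_fst).tendsto _
    filter_upwards [h5, hc.eventually htc] with p h1 h2
    obtain ⟨e0, e1, e3⟩ := h2
    rw [e0, e1, e3, zero_mul, zero_mul, add_zero, add_zero] at h1
    exact h1
  obtain ⟨L, hL, h7⟩ := SS_bd T hx
  refine ⟨deriv (tc f 2), ?_⟩
  have hVx : ∀ᶠ t in 𝓝 x₀, t ∈ V := T.op.mem_nhds hx
  filter_upwards [eventually_axis h6.eventually_nhds, eventually_axis h7.eventually_nhds,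
    eventually_analyticAt_tc af, eventually_axis law.eventually_nhds,
    eventually_axis vs.eventually_nhds, v0, eventually_axis av.eventually_analyticAt,
    hVx] with t p6 p7 ptc plaw pvs pv0 pav ptV
  have a2 := ptc 2
  have a4 := ptc 4
  set b2 := tc f 2 with hb2
  set b4 := tc f 4 with hb4
  -- paths
  have hpath : ∀ k : ℂ, Tendsto (fun w : ℂ => ((t + k * w, w) : ℂ × ℂ)) (𝓝 0) (𝓝 (t, 0)) := by
    intro k
    have : Continuous (fun w : ℂ => ((t + k * w, w) : ℂ × ℂ)) := by fun_prop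
    have h := this.tendsto 0
    simpa using h
  set R : ℂ → ℂ → ℂ := fun k w => f (t + k * w, w) -
    (t + k * w + b2 (t + k * w) * w ^ 2 + b4 (t + k * w) * w ^ 4) with hR
  have OR : ∀ k : ℂ, R k =O[𝓝 0] fun w : ℂ => w ^ 5 := by
    intro k
    refine Asymptotics.IsBigO.of_bound K ?_
    filter_upwards [(hpath k).eventually p6] with w hw
    rw [norm_pow]
    exact hw
  have hmulk : ∀ k : ℂ, Tendsto (fun w : ℂ => k * w) (𝓝 0) (𝓝 0) := by
    intro k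
    have : Continuous (fun w : ℂ => k * w) := by fun_prop
    have h := this.tendsto 0
    simpa using h
  have Okw : ∀ (k : ℂ) (n : ℕ), (fun w : ℂ => (k * w) ^ n) =O[𝓝 0] fun w : ℂ => w ^ n := by
    intro k n
    refine Asymptotics.IsBigO.of_bound (‖k‖ ^ n) (Eventually.of_forall fun w => ?_)
    rw [norm_pow, norm_mul, mul_pow, norm_pow]
  set r2 : ℂ → ℂ → ℂ := fun k w => b2 (t + k * w) - b2 t - deriv b2 t * (k * w) -
    deriv (deriv b2) t * (k * w) ^ 2 / 2 with hr2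
  have Or2 : ∀ k : ℂ, r2 k =O[𝓝 0] fun w : ℂ => w ^ 3 := fun k =>
    ((tay3 a2).comp_tendsto (hmulk k)).trans (Okw k 3)
  set r4 : ℂ → ℂ → ℂ := fun k w => b4 (t + k * w) - b4 t with hr4
  have Or4 : ∀ k : ℂ, r4 k =O[𝓝 0] fun w : ℂ => w := by
    intro k
    have h1 : (fun u => b4 (t + u) - b4 t) =O[𝓝 0] fun u : ℂ => u := by
      have h2 := a4.differentiableAt.isBigO_sub
      have h3 : Tendsto (fun u : ℂ => t + u) (𝓝 0) (𝓝 t) := by
        have : Continuous (fun u : ℂ => t + u) := by fun_prop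
        have h := this.tendsto 0
        simpa using h
      have h4 := h2.comp_tendsto h3
      have e : ((fun x => x - t) ∘ fun u => t + u) = fun u : ℂ => u := by
        funext u; simp
      rw [e] at h4
      exact h4
    have h6 : (fun w : ℂ => k * w) =O[𝓝 0] fun w : ℂ => w := by
      have := Okw k 1
      simpa using this
    exact (h1.comp_tendsto (hmulk k)).trans h6
  -- powers
  have Opw : ∀ {F : ℂ → ℂ} {n : ℕ} (m : ℕ), F =O[𝓝 0] (fun w : ℂ => w ^ n) →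
      (fun w => w ^ m * F w) =O[𝓝 0] fun w : ℂ => w ^ (m + n) := by
    intro F n m h
    have := (Asymptotics.isBigO_refl (fun w : ℂ => w ^ m) (𝓝 0)).mul h
    refine this.congr_right (fun w => by ring)
  -- the symmetric second difference
  set D : ℂ → ℂ := fun w => f (t + w, w) + f (t - w, w) - 2 * f (t, w) -
    deriv (deriv b2) t * w ^ 4 with hD
  have OD : D =O[𝓝 0] fun w : ℂ => w ^ 5 := by
    have h1 := Opw 2 (((Or2 1).add (Or2 (-1))).sub ((Or2 0).const_mul_left 2))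
    have h2 := Opw (n := 1) 4 ((((Or4 1).add (Or4 (-1))).sub ((Or4 0).const_mul_left 2)).trans (by
      simpa using Asymptotics.isBigO_refl (fun w : ℂ => w) (𝓝 0)))
    have h3 := ((OR 1).add (OR (-1))).sub ((OR 0).const_mul_left 2)
    refine ((h1.add h2).add h3).congr_left (fun w => ?_)
    simp only [hr2, hr4, hR, hD]
    simp only [one_mul, zero_mul, add_zero, neg_mul]
    have e : t + -w = t - w := by ring
    rw [e]
    ring
  have hlim1 : Tendsto (fun w : ℂ => (f (t + w, w) + f (t - w, w) - 2 * f (t, w)) / w ^ 4)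
      (𝓝[≠] 0) (𝓝 (deriv (deriv b2) t)) := by
    have h1 : D =o[𝓝 0] fun w : ℂ => w ^ 4 :=
      OD.trans_isLittleO (Asymptotics.isLittleO_pow_pow (by norm_num))
    have h2 := (h1.tendsto_div_nhds_zero.mono_left (nhdsWithin_le_nhds (s := {(0 : ℂ)}ᶜ))).add_const (deriv (deriv b2) t)
    rw [zero_add] at h2
    refine h2.congr' ?_
    filter_upwards [ne_ev] with w hw
    simp only [hD]
    field_simp
    ring
  -- the first difference
  have hlim0 : Tendsto (fun w : ℂ => (f (t + w, w) - f (t, w)) / w) (𝓝[≠] 0) (𝓝 1) := by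
    have h1 := Opw 2 ((Or2 1).sub (Or2 0))
    have h2 := Opw (n := 1) 4 (((Or4 1).sub (Or4 0)).trans (by
      simpa using Asymptotics.isBigO_refl (fun w : ℂ => w) (𝓝 0)))
    have h3 := (OR 1).sub (OR 0)
    have l1 : ∀ n : ℕ, 1 < n → (fun w : ℂ => w ^ n) =o[𝓝 0] fun w : ℂ => w := by
      intro n hn
      have : (fun w : ℂ => w ^ n) =o[𝓝 0] fun w : ℂ => w ^ 1 := Asymptotics.isLittleO_pow_pow hn
      simpa using this
    have h4 := ((h1.trans_isLittleO (l1 5 (by norm_num))).add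
      (h2.trans_isLittleO (l1 5 (by norm_num)))).add (h3.trans_isLittleO (l1 5 (by norm_num)))
    have h5 : (fun w : ℂ => deriv b2 t * w ^ 3 + deriv (deriv b2) t / 2 * w ^ 4) =o[𝓝 0]
        fun w : ℂ => w :=
      ((l1 3 (by norm_num)).const_mul_left _).add ((l1 4 (by norm_num)).const_mul_left _)
    have h6 := ((h4.add h5).tendsto_div_nhds_zero.mono_left
      (nhdsWithin_le_nhds (s := {(0 : ℂ)}ᶜ))).add_const 1
    rw [zero_add] at h6
    refine h6.congr' ?_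
    filter_upwards [ne_ev] with w hw
    simp only [hr2, hr4, hR]
    simp only [one_mul, zero_mul, add_zero]
    field_simp
    ring
  -- the phase along the path
  have hv0 : Tendsto (fun w : ℂ => v (t, w)) (𝓝 0) (𝓝 (t, 0)) := by
    have h1 := hpath 0
    simp only [zero_mul, add_zero] at h1
    have h2 := pav.continuousAt.tendsto.comp h1
    rw [pv0] at h2
    exact h2
  have hXr : Tendsto (fun w : ℂ => Xr Φ q c (v (t, w))) (𝓝 0) (𝓝 2) := by
    have h1 := (Xr_an T (Ad_axis T ptV)).continuousAt.tendsto.comp hv0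
    have h2 : Xr Φ q c (t, 0) = 2 := by
      have := (Xr_eq T.hc (T.crv _ ptV)).2.1
      exact this
    rw [h2] at h1
    exact h1
  have hη : Tendsto (fun w : ℂ => (v (t, w)).2 / w) (𝓝[≠] 0) (𝓝 (1 / 2)) := by
    have h1 := hlim0.div (hXr.mono_left nhdsWithin_le_nhds) two_ne_zero
    refine h1.congr' ?_
    have h2 : ∀ᶠ w in 𝓝 (0 : ℂ), T1 Φ q c (v (t, w)) = f (t + w, w) := by
      have h3 := hpath 0
      simp only [zero_mul, add_zero] at h3
      exact h3.eventually plaw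
    have h4 : ∀ᶠ w in 𝓝 (0 : ℂ), Xr Φ q c (v (t, w)) ≠ 0 := hXr.eventually_ne two_ne_zero
    filter_upwards [h2.filter_mono nhdsWithin_le_nhds, h4.filter_mono nhdsWithin_le_nhds, ne_ev]
      with w h5 h6 h7
    simp only [Pi.div_apply]
    rw [← h5, T1]
    simp only [hf]
    field_simp
    ring
  refine ⟨?_, ?_⟩
  · -- the second derivative of `b2`
    have h1 : ∀ᶠ w in 𝓝 (0 : ℂ), f (t + w, w) + f (t - w, w) - 2 * f (t, w) =
        SS Φ q Q c (v (t, w)) + 16 / 15 * (deriv Q (v (t, w)).1 +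
          deriv Φ (v (t, w)).1 * deriv (deriv Φ) (v (t, w)).1 / 4) * (v (t, w)).2 ^ 4 := by
      have h3 := hpath 0
      simp only [zero_mul, add_zero] at h3
      have h4 : Tendsto (fun w : ℂ => ((t, -w) : ℂ × ℂ)) (𝓝 0) (𝓝 (t, 0)) := by
        have : Continuous (fun w : ℂ => ((t, -w) : ℂ × ℂ)) := by fun_prop
        have h := this.tendsto 0
        simpa using h
      have h5 : Tendsto (fun w : ℂ => ((t - w, w) : ℂ × ℂ)) (𝓝 0) (𝓝 (t, 0)) := by
        have : Continuous (fun w : ℂ => ((t - w, w) : ℂ × ℂ)) := by fun_prop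
        have h := this.tendsto 0
        simpa using h
      filter_upwards [h3.eventually plaw, h4.eventually plaw, h3.eventually pvs,
        h5.eventually pvs] with w e1 e2 e3 e4
      have e5 : t + -w = t - w := by ring
      rw [e5, e4, e3] at e2
      simp only [SS]
      rw [e1, e2]
      simp only [hf]
      ring
    have h2 : Tendsto (fun w : ℂ => SS Φ q Q c (v (t, w)) / w ^ 4) (𝓝[≠] 0) (𝓝 0) := by
      have h3 : ∀ᶠ w in 𝓝[≠] (0 : ℂ), ‖SS Φ q Q c (v (t, w)) / w ^ 4‖ ≤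
          L * ‖(v (t, w)).2 / w‖ ^ 4 * ‖(v (t, w)).2‖ := by
        filter_upwards [(hv0.eventually p7).filter_mono nhdsWithin_le_nhds, ne_ev] with w h4 hw
        have hw0 : 0 < ‖w‖ := norm_pos_iff.2 hw
        rw [norm_div, norm_pow, div_le_iff₀ (by positivity), norm_div]
        refine h4.trans (le_of_eq ?_)
        field_simp
      have h4 : Tendsto (fun w : ℂ => L * ‖(v (t, w)).2 / w‖ ^ 4 * ‖(v (t, w)).2‖) (𝓝[≠] 0)
          (𝓝 (L * ‖(1 / 2 : ℂ)‖ ^ 4 * ‖(0 : ℂ)‖)) := by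
        refine ((hη.norm.pow 4).const_mul L).mul ?_
        have h5 : Tendsto (fun w : ℂ => (v (t, w)).2) (𝓝 0) (𝓝 0) :=
          (continuous_snd.tendsto ((t, 0) : ℂ × ℂ)).comp hv0
        exact (h5.mono_left nhdsWithin_le_nhds).norm
      rw [norm_zero, mul_zero] at h4
      exact squeeze_zero_norm' h3 h4
    have h3 : Tendsto (fun w : ℂ => SS Φ q Q c (v (t, w)) / w ^ 4 +
        16 / 15 * (deriv Q (v (t, w)).1 + deriv Φ (v (t, w)).1 *
          deriv (deriv Φ) (v (t, w)).1 / 4) * ((v (t, w)).2 / w) ^ 4) (𝓝[≠] 0)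
        (𝓝 (0 + 16 / 15 * (deriv Q t + deriv Φ t * deriv (deriv Φ) t / 4) * (1 / 2) ^ 4)) := by
      have h4 : Tendsto (fun w : ℂ => (v (t, w)).1) (𝓝[≠] 0) (𝓝 t) :=
        ((continuous_fst.tendsto ((t, 0) : ℂ × ℂ)).comp hv0).mono_left nhdsWithin_le_nhds
      have hC := (T.crv _ ptV).aΦ
      have k1 := (T.aQ _ ptV).deriv.continuousAt.tendsto.comp h4
      have k2 := hC.deriv.continuousAt.tendsto.comp h4
      have k3 := hC.deriv.deriv.continuousAt.tendsto.comp h4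
      exact h2.add (((k1.add ((k2.mul k3).div_const 4)).const_mul (16 / 15)).mul (hη.pow 4))
    have h4 := h3.congr' (f₂ := fun w : ℂ => (f (t + w, w) + f (t - w, w) - 2 * f (t, w)) / w ^ 4)
      (by
        filter_upwards [h1.filter_mono nhdsWithin_le_nhds, ne_ev] with w e1 hw
        rw [e1]
        field_simp)
    have h5 := tendsto_nhds_unique h4 hlim1
    have h6 := a2.deriv.differentiableAt.hasDerivAt
    rw [← h5] at h6
    refine h6.congr_deriv ?_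
    ring
  · have h1 := Opw 2 ((Or2 (1 / 2)).sub (Or2 (-1 / 2)))
    have h2 := Opw (n := 1) 4 (((Or4 (1 / 2)).sub (Or4 (-1 / 2))).trans (by
      simpa using Asymptotics.isBigO_refl (fun w : ℂ => w) (𝓝 0)))
    have h3 := (OR (1 / 2)).sub (OR (-1 / 2))
    have l1 : (fun w : ℂ => w ^ 5) =o[𝓝 0] fun w : ℂ => w ^ 3 :=
      Asymptotics.isLittleO_pow_pow (by norm_num)
    have h4 := (((h1.add h2).add h3).trans_isLittleO l1)
    have h6 := (h4.tendsto_div_nhds_zero.mono_left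
      (nhdsWithin_le_nhds (s := {(0 : ℂ)}ᶜ))).add_const (deriv b2 t)
    rw [zero_add] at h6
    refine h6.congr' ?_
    filter_upwards [ne_ev] with w hw
    simp only [hr2, hr4, hR, hf]
    have e1 : t + 1 / 2 * w = t + w / 2 := by ring
    have e2 : t + -1 / 2 * w = t - w / 2 := by ring
    rw [e1, e2]
    field_simp
    ring

end Vale.Agent.P097.H710
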