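import Vale.Agent.P097.H133.Tm3

/-!
# P097, case [d], row D1' (link): the next vertex to order 4

`T1 (θ, η) + T1 (θ, -η) - 2 θ = (16 / 15) (Q' + Φ' Φ'' / 4) η^4 + O (η^5)`.
-/

set_option linter.all false

open Complex Metric Filter Topology Set

namespace Vale.Agent.P097.H710

open Vale.Agent.P097 Vale.Agent.P097.SC Vale.Agent.P097.H133.Tm

/-- uniform `O (η ^ n)` on `‖s‖ ≤ 3` -/
def UO (n : ℕ) (f : ℂ → ℂ → ℂ) : Prop :=
  ∃ K : ℝ, 0 ≤ K ∧ ∀ᶠ η in 𝓝[≠] (0 : ℂ), ∀ s : ℂ, ‖s‖ ≤ 3 → ‖f η s‖ ≤ K * ‖η‖ ^ n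

theorem UO.congr {n : ℕ} {f g : ℂ → ℂ → ℂ} (hf : UO n f)
    (h : ∀ᶠ η in 𝓝[≠] (0 : ℂ), ∀ s : ℂ, ‖s‖ ≤ 3 → g η s = f η s) : UO n g := by
  obtain ⟨K, hK, h1⟩ := hf
  refine ⟨K, hK, ?_⟩
  filter_upwards [h1, h] with η h1 h2 s hs
  rw [h2 s hs]
  exact h1 s hs

theorem UO.add {n : ℕ} {f g : ℂ → ℂ → ℂ} (hf : UO n f) (hg : UO n g) :
    UO n (fun η s => f η s + g η s) := by
  obtain ⟨K, hK, h1⟩ := hf
  obtain ⟨L, hL, h2⟩ := hg
  refine ⟨K + L, by positivity, ?_⟩
  filter_upwards [h1, h2] with η h1 h2 s hs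
  refine (norm_add_le _ _).trans ?_
  rw [add_mul]
  exact add_le_add (h1 s hs) (h2 s hs)

theorem UO.neg {n : ℕ} {f : ℂ → ℂ → ℂ} (hf : UO n f) : UO n (fun η s => - f η s) := by
  obtain ⟨K, hK, h1⟩ := hf
  refine ⟨K, hK, ?_⟩
  filter_upwards [h1] with η h1 s hs
  rw [norm_neg]
  exact h1 s hs

theorem UO.sub {n : ℕ} {f g : ℂ → ℂ → ℂ} (hf : UO n f) (hg : UO n g) :
    UO n (fun η s => f η s - g η s) := by
  have := hf.add hg.neg
  refine this.congr (Eventually.of_forall fun η s hs => by ring)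

theorem UO.mul {n m : ℕ} {f g : ℂ → ℂ → ℂ} (hf : UO n f) (hg : UO m g) :
    UO (n + m) (fun η s => f η s * g η s) := by
  obtain ⟨K, hK, h1⟩ := hf
  obtain ⟨L, hL, h2⟩ := hg
  refine ⟨K * L, by positivity, ?_⟩
  filter_upwards [h1, h2] with η h1 h2 s hs
  rw [norm_mul]
  calc ‖f η s‖ * ‖g η s‖ ≤ (K * ‖η‖ ^ n) * (L * ‖η‖ ^ m) :=
        mul_le_mul (h1 s hs) (h2 s hs) (norm_nonneg _) (by positivity)
    _ = K * L * ‖η‖ ^ (n + m) := by ring

theorem UO.mono {n m : ℕ} {f : ℂ → ℂ → ℂ} (hf : UO n f) (hm : m ≤ n) : UO m f := by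
  obtain ⟨K, hK, h1⟩ := hf
  refine ⟨K, hK, ?_⟩
  have h2 : ∀ᶠ η in 𝓝[≠] (0 : ℂ), ‖η‖ ≤ 1 := by
    have : ∀ᶠ η in 𝓝 (0 : ℂ), ‖η‖ ≤ 1 := by
      filter_upwards [Metric.ball_mem_nhds (0 : ℂ) one_pos] with w hw
      exact (mem_ball_zero_iff.1 hw).le
    exact this.filter_mono nhdsWithin_le_nhds
  filter_upwards [h1, h2] with η h1 h2 s hs
  refine (h1 s hs).trans (mul_le_mul_of_nonneg_left ?_ hK)
  exact pow_le_pow_of_le_one (norm_nonneg _) h2 hm

theorem UO.const (c : ℂ) : UO 0 (fun _ _ => c) :=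
  ⟨‖c‖, norm_nonneg _, Eventually.of_forall fun η s hs => by simp⟩

theorem UO.s : UO 0 (fun _ s => s) :=
  ⟨3, by norm_num, Eventually.of_forall fun η s hs => by simpa using hs⟩

theorem UO.eta : UO 1 (fun η _ => η) :=
  ⟨1, by norm_num, Eventually.of_forall fun η s hs => by simp⟩

theorem UO.etan (n : ℕ) : UO n (fun η _ => η ^ n) :=
  ⟨1, by norm_num, Eventually.of_forall fun η s hs => by simp⟩

theorem UO.spow (n : ℕ) : UO 0 (fun _ s => s ^ n) := by
  induction n with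
  | zero => exact (UO.const 1).congr (Eventually.of_forall fun η s hs => by simp)
  | succ n ih => exact (ih.mul UO.s).congr (Eventually.of_forall fun η s hs => by ring)

theorem UO.cmul {n : ℕ} {f : ℂ → ℂ → ℂ} (c : ℂ) (hf : UO n f) : UO n (fun η s => c * f η s) :=
  ((UO.const c).mul hf).mono (by omega)

/-- a function of one variable composed with a small uniform function -/
theorem UO.comp {n k : ℕ} {F : ℂ → ℂ} {f : ℂ → ℂ → ℂ} (hn : 1 ≤ n)
    (hF : F =O[𝓝 0] fun z => z ^ k) (hf : UO n f) : UO (n * k) (fun η s => F (f η s)) := by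
  obtain ⟨C, hC0, hC⟩ := hF.exists_pos
  rw [Asymptotics.isBigOWith_iff] at hC
  obtain ⟨r, hr, hb⟩ := Metric.eventually_nhds_iff_ball.1 hC
  obtain ⟨K, hK, h1⟩ := hf
  refine ⟨C * K ^ k, by positivity, ?_⟩
  have h2 : ∀ᶠ η in 𝓝[≠] (0 : ℂ), K * ‖η‖ ^ n < r := by
    have hc : Continuous fun η : ℂ => K * ‖η‖ ^ n := by fun_prop
    have : ∀ᶠ η in 𝓝 (0 : ℂ), K * ‖η‖ ^ n < r := by
      refine hc.continuousAt.eventually_lt_const ?_
      simp only [norm_zero]
      rw [zero_pow (by omega), mul_zero]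
      exact hr
    exact this.filter_mono nhdsWithin_le_nhds
  filter_upwards [h1, h2] with η h1 h2 s hs
  have h3 := h1 s hs
  have h4 := hb (f η s) (by rw [mem_ball_zero_iff]; exact h3.trans_lt h2)
  refine h4.trans ?_
  rw [norm_pow]
  calc C * ‖f η s‖ ^ k ≤ C * (K * ‖η‖ ^ n) ^ k := by
        refine mul_le_mul_of_nonneg_left ?_ hC0.le
        exact pow_le_pow_left₀ (norm_nonneg _) h3 k
    _ = C * K ^ k * ‖η‖ ^ (n * k) := by rw [mul_pow, ← pow_mul]; ring

/-- integration of `O` in one variable -/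
theorem isBigO_int {F F' : ℂ → ℂ} {n : ℕ} (hd : ∀ᶠ z in 𝓝 (0 : ℂ), HasDerivAt F (F' z) z)
    (h0 : F 0 = 0) (hF : F' =O[𝓝 0] fun z => z ^ n) : F =O[𝓝 0] fun z => z ^ (n + 1) := by
  obtain ⟨C, hC0, hC⟩ := hF.exists_pos
  rw [Asymptotics.isBigOWith_iff] at hC
  obtain ⟨r, hr, hb⟩ := Metric.eventually_nhds_iff_ball.1 (hd.and hC)
  refine Asymptotics.IsBigO.of_bound C ?_
  filter_upwards [Metric.ball_mem_nhds (0 : ℂ) hr] with z hz
  rw [mem_ball_zero_iff] at hz
  have hsub : ∀ x ∈ closedBall (0 : ℂ) ‖z‖, x ∈ ball (0 : ℂ) r := by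
    intro x hx
    rw [mem_closedBall_zero_iff] at hx
    rw [mem_ball_zero_iff]
    linarith
  have h := (convex_cb ‖z‖).norm_image_sub_le_of_norm_hasDerivWithin_le (f := F) (f' := F')
    (C := C * ‖z‖ ^ n) (x := 0) (y := z)
    (fun x hx => (hb x (hsub x hx)).1.hasDerivWithinAt)
    (fun x hx => by
      refine (hb x (hsub x hx)).2.trans ?_
      rw [mem_closedBall_zero_iff] at hx
      rw [norm_pow]
      exact mul_le_mul_of_nonneg_left (pow_le_pow_left₀ (norm_nonneg _) hx n) hC0.le)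
    (by simp) (by simp)
  rw [h0, sub_zero, sub_zero] at h
  refine h.trans (le_of_eq ?_)
  rw [norm_pow]
  ring

theorem cos_O : (fun z : ℂ => Complex.cos z - 1 + z ^ 2 / 2) =O[𝓝 0] fun z => z ^ 4 := by
  have h1 : Complex.sin =O[𝓝 0] fun z : ℂ => z ^ (0 + 1) :=
    isBigO_int (F' := Complex.cos) (Eventually.of_forall fun z => Complex.hasDerivAt_sin z)
      Complex.sin_zero (by
        have := Complex.continuous_cos.continuousAt (x := (0 : ℂ))
        simpa using this.isBigO_one ℂ)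
  have h2 : (fun z : ℂ => 1 - Complex.cos z) =O[𝓝 0] fun z : ℂ => z ^ (1 + 1) :=
    isBigO_int (F' := Complex.sin) (Eventually.of_forall fun z =>
      ((Complex.hasDerivAt_cos z).const_sub 1).congr_deriv (by ring))
      (by simp) h1
  have h3 : (fun z : ℂ => z - Complex.sin z) =O[𝓝 0] fun z : ℂ => z ^ (2 + 1) :=
    isBigO_int (F' := fun z => 1 - Complex.cos z) (Eventually.of_forall fun z =>
      (hasDerivAt_id z).sub (Complex.hasDerivAt_sin z)) (by simp) h2
  refine isBigO_int (F' := fun z => z - Complex.sin z) (Eventually.of_forall fun z => ?_)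
    (by simp) h3
  have := ((Complex.hasDerivAt_cos z).sub_const 1).add (((hasDerivAt_id z).pow 2).div_const 2)
  refine this.congr_deriv ?_
  simp
  ring

theorem sin_O : (fun z : ℂ => Complex.sin z - z + z ^ 3 / 6) =O[𝓝 0] fun z => z ^ 5 := by
  refine isBigO_int (F' := fun z => Complex.cos z - 1 + z ^ 2 / 2)
    (Eventually.of_forall fun z => ?_) (by simp) cos_O
  have := ((Complex.hasDerivAt_sin z).sub (hasDerivAt_id z)).add
    (((hasDerivAt_id z).pow 3).div_const 6)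
  refine this.congr_deriv ?_
  simp
  ring

theorem snc_O : (fun z : ℂ => NZ.snc z - 1 + z ^ 2 / 6) =O[𝓝 0] fun z => z ^ 4 := by
  obtain ⟨C, hC0, hC⟩ := sin_O.exists_pos
  rw [Asymptotics.isBigOWith_iff] at hC
  refine Asymptotics.IsBigO.of_bound C ?_
  filter_upwards [hC] with z hz
  by_cases h0 : z = 0
  · rw [h0, NZ.snc_zero]
    simp
  · have h1 : 0 < ‖z‖ := norm_pos_iff.2 h0
    have e : Complex.sin z - z + z ^ 3 / 6 = z * (NZ.snc z - 1 + z ^ 2 / 6) := by
      rw [← NZ.mul_snc z]; ring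
    rw [e, norm_mul, norm_pow] at hz
    rw [norm_pow]
    have : ‖z‖ * ‖NZ.snc z - 1 + z ^ 2 / 6‖ ≤ ‖z‖ * (C * ‖z‖ ^ 4) := by
      calc _ ≤ C * ‖z‖ ^ 5 := hz
        _ = _ := by ring
    exact le_of_mul_le_mul_left this h1

/-- Taylor expansion of order 2 of an analytic function -/
theorem tay2 {f : ℂ → ℂ} {x : ℂ} (hf : AnalyticAt ℂ f x) :
    (fun u => f (x + u) - f x - deriv f x * u) =O[𝓝 0] fun u => u ^ 2 := by
  have hev : ∀ᶠ u in 𝓝 (0 : ℂ), AnalyticAt ℂ f (x + u) := by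
    have hc : Tendsto (fun u : ℂ => x + u) (𝓝 0) (𝓝 x) := by
      have : Continuous fun u : ℂ => x + u := by fun_prop
      simpa using this.tendsto 0
    exact hc.eventually hf.eventually_analyticAt
  have hd1 : ∀ᶠ u in 𝓝 (0 : ℂ), HasDerivAt (fun u => deriv f (x + u) - deriv f x)
      (deriv (deriv f) (x + u)) u := by
    filter_upwards [hev] with u hu
    have h := (hu.deriv.differentiableAt.hasDerivAt.comp_const_add x u).sub_const (deriv f x)
    exact h
  have h1 : (fun u => deriv f (x + u) - deriv f x) =O[𝓝 0] fun u => u ^ (0 + 1) := by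
    refine isBigO_int (F' := fun u => deriv (deriv f) (x + u)) hd1 (by simp) ?_
    have hc : ContinuousAt (fun u => deriv (deriv f) (x + u)) 0 := by
      have h2 : ContinuousAt (deriv (deriv f)) (x + 0) := by
        rw [add_zero]; exact hf.deriv.deriv.continuousAt
      exact h2.comp (f := fun u => x + u) (by fun_prop)
    simpa using hc.isBigO_one ℂ
  refine isBigO_int (F' := fun u => deriv f (x + u) - deriv f x) ?_ (by simp) h1
  filter_upwards [hev] with u hu
  have h := ((hu.differentiableAt.hasDerivAt.comp_const_add x u).sub_const (f x)).sub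
    ((hasDerivAt_id u).const_mul (deriv f x))
  refine h.congr_deriv (by ring)

/-- Taylor expansion of order 3 of an analytic function -/
theorem tay3 {f : ℂ → ℂ} {x : ℂ} (hf : AnalyticAt ℂ f x) :
    (fun u => f (x + u) - f x - deriv f x * u - deriv (deriv f) x * u ^ 2 / 2) =O[𝓝 0]
      fun u => u ^ 3 := by
  have hev : ∀ᶠ u in 𝓝 (0 : ℂ), AnalyticAt ℂ f (x + u) := by
    have hc : Tendsto (fun u : ℂ => x + u) (𝓝 0) (𝓝 x) := by
      have : Continuous fun u : ℂ => x + u := by fun_prop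
      simpa using this.tendsto 0
    exact hc.eventually hf.eventually_analyticAt
  refine isBigO_int (F' := fun u => deriv f (x + u) - deriv f x - deriv (deriv f) x * u)
    ?_ (by simp) (tay2 hf.deriv)
  filter_upwards [hev] with u hu
  have h := (((hu.differentiableAt.hasDerivAt.comp_const_add x u).sub_const (f x)).sub
    ((hasDerivAt_id u).const_mul (deriv f x))).sub
      ((((hasDerivAt_id u).pow 2).const_mul (deriv (deriv f) x)).div_const 2)
  refine h.congr_deriv ?_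
  simp
  ring

end Vale.Agent.P097.H710
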