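import Vale.Agent.P097.H710.Tay

/-!
# P097, case [d], row D1' (link): the next vertex to order 4 (2)
-/

set_option linter.all false

open Complex Metric Filter Topology Set

namespace Vale.Agent.P097.H710

open Vale.Agent.P097 Vale.Agent.P097.SC Vale.Agent.P097.H133.Tm

variable {Φ q Q : ℂ → ℂ} {c : ℂ} {V : Set ℂ} {A B M : ℝ}

/-- two integrations -/
theorem UO.int2 {n : ℕ} {f f1 f2 : ℂ → ℂ → ℂ}
    (h1 : ∀ᶠ η in 𝓝[≠] (0 : ℂ), ∀ s : ℂ, ‖s‖ ≤ 3 → HasDerivAt (f η) (f1 η s) s)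
    (h2 : ∀ᶠ η in 𝓝[≠] (0 : ℂ), ∀ s : ℂ, ‖s‖ ≤ 3 → HasDerivAt (f1 η) (f2 η s) s)
    (h0 : ∀ᶠ η in 𝓝[≠] (0 : ℂ), f η 0 = 0) (h10 : UO n (fun η _ => f1 η 0)) (hf2 : UO n f2) :
    UO n f := by
  obtain ⟨K, hK, hk⟩ := h10
  obtain ⟨L, hL, hl⟩ := hf2
  refine ⟨3 * K + 9 * L, by positivity, ?_⟩
  filter_upwards [h1, h2, h0, hk, hl] with η h1 h2 h0 hk hl s hs
  have hcb : ∀ y ∈ closedBall (0 : ℂ) 3, ‖y‖ ≤ 3 := fun y hy => by
    rwa [mem_closedBall_zero_iff] at hy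
  have h := (two_step (f := f η) (f1 := f1 η) (f2 := f2 η) (r := 3) (K := L * ‖η‖ ^ n)
    (by norm_num) (by positivity) (fun y hy => h1 y (hcb y hy)) (fun y hy => h2 y (hcb y hy))
    (fun y hy => hl y (hcb y hy)) (s := s) (by rwa [mem_closedBall_zero_iff])).2
  rw [h0, sub_zero] at h
  have h3 : ‖s * f1 η 0‖ ≤ 3 * (K * ‖η‖ ^ n) := by
    rw [norm_mul]
    exact mul_le_mul hs (hk 0 (by simp)) (norm_nonneg _) (by norm_num)
  calc ‖f η s‖ = ‖(f η s - s * f1 η 0) + s * f1 η 0‖ := by rw [sub_add_cancel]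
    _ ≤ _ := norm_add_le _ _
    _ ≤ L * ‖η‖ ^ n * 3 * 3 + 3 * (K * ‖η‖ ^ n) := add_le_add h h3
    _ = _ := by ring

theorem UO.comp_neg {n : ℕ} {f : ℂ → ℂ → ℂ} (hf : UO n f) : UO n (fun η s => f (-η) s) := by
  obtain ⟨K, hK, h1⟩ := hf
  refine ⟨K, hK, ?_⟩
  have ht : Tendsto (fun η : ℂ => -η) (𝓝[≠] 0) (𝓝[≠] 0) := by
    refine tendsto_nhdsWithin_iff.2 ⟨?_, ?_⟩
    · have : Continuous fun η : ℂ => -η := continuous_neg
      have h := this.tendsto 0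
      rw [neg_zero] at h
      exact h.mono_left nhdsWithin_le_nhds
    · filter_upwards [self_mem_nhdsWithin] with η hη
      exact neg_ne_zero.2 hη
  filter_upwards [ht.eventually h1] with η h1 s hs
  have := h1 s hs
  rwa [norm_neg] at this

/-- all small `η` are admissible -/
theorem Ad_ev (T : Bx Φ q Q c V A B M) {θ : ℂ} (hθ : θ ∈ V) :
    ∀ᶠ η in 𝓝[≠] (0 : ℂ), Ad V A B M (θ, η) := by
  obtain ⟨r, hr, hb⟩ := Metric.isOpen_iff.1 T.op θ hθ
  have c1 : Continuous fun η : ℂ => 3 * ‖η‖ := by fun_prop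
  have c2 : Continuous fun η : ℂ => A * ‖η‖ := by fun_prop
  have c3 : Continuous fun η : ℂ => (B + M) * ‖η‖ ^ 2 := by fun_prop
  have e1 : ∀ᶠ η in 𝓝 (0 : ℂ), 3 * ‖η‖ < r :=
    c1.continuousAt.eventually_lt_const (by simpa using hr)
  have e2 : ∀ᶠ η in 𝓝 (0 : ℂ), A * ‖η‖ < 1 / 100 :=
    c2.continuousAt.eventually_lt_const (by simp)
  have e3 : ∀ᶠ η in 𝓝 (0 : ℂ), (B + M) * ‖η‖ ^ 2 < 1 / 10000 :=
    c3.continuousAt.eventually_lt_const (by simp)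
  have : ∀ᶠ η in 𝓝 (0 : ℂ), Ad V A B M (θ, η) := by
    filter_upwards [e1, e2, e3] with η h1 h2 h3
    refine ⟨?_, h2, h3⟩
    intro x hx
    apply hb
    rw [mem_closedBall] at hx
    rw [mem_ball]
    exact hx.trans_lt h1
  exact this.filter_mono nhdsWithin_le_nhds

theorem ne_ev : ∀ᶠ η in 𝓝[≠] (0 : ℂ), η ≠ 0 := by
  filter_upwards [self_mem_nhdsWithin] with η hη using hη

/-- the quadratic, cubic and quartic coefficient polynomials -/
noncomputable def P2 (g g' Qt : ℂ) (s : ℂ) : ℂ :=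
  -g ^ 2 * s / 6 + Qt * (s ^ 3 / 6 - s ^ 4 / 24) + g ^ 2 * (s ^ 2 / 4 - s ^ 3 / 6 + s ^ 4 / 24)
noncomputable def P3 (g g' Q1 : ℂ) (s : ℂ) : ℂ :=
  Q1 * (s ^ 4 / 12 - s ^ 5 / 40) - g * g' * (s ^ 4 / 24 - s ^ 5 / 40)

/-- the model -/
noncomputable def pp (g g' Qt Q1 : ℂ) (η s : ℂ) : ℂ :=
  s - s ^ 2 / 2 + η ^ 2 * P2 g g' Qt s + η ^ 3 * P3 g g' Q1 s
noncomputable def pp1 (g g' Qt Q1 : ℂ) (η s : ℂ) : ℂ :=
  1 - s + η ^ 2 * (-g ^ 2 / 6 + Qt * (s ^ 2 / 2 - s ^ 3 / 6) +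
      g ^ 2 * (s / 2 - s ^ 2 / 2 + s ^ 3 / 6)) +
    η ^ 3 * (Q1 * (s ^ 3 / 3 - s ^ 4 / 8) - g * g' * (s ^ 3 / 6 - s ^ 4 / 8))
noncomputable def pp2 (g g' Qt Q1 : ℂ) (η s : ℂ) : ℂ :=
  -1 + η ^ 2 * (Qt * (s - s ^ 2 / 2) + g ^ 2 * (1 / 2 - s + s ^ 2 / 2)) +
    η ^ 3 * (Q1 * (s ^ 2 - s ^ 3 / 2) - g * g' * (s ^ 2 / 2 - s ^ 3 / 2))

theorem hasDerivAt_pw (n : ℕ) (s : ℂ) : HasDerivAt (fun s : ℂ => s ^ (n + 1)) ((n + 1) * s ^ n) s := by
  have := hasDerivAt_pow (n + 1) s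
  simpa using this

theorem hasDerivAt_pp (g g' Qt Q1 : ℂ) (η s : ℂ) :
    HasDerivAt (pp g g' Qt Q1 η) (pp1 g g' Qt Q1 η s) s := by
  have h1 := hasDerivAt_id s
  have h2 := hasDerivAt_pw 1 s
  have h3 := hasDerivAt_pw 2 s
  have h4 := hasDerivAt_pw 3 s
  have h5 := hasDerivAt_pw 4 s
  have a := (h1.sub (h2.div_const 2)).add
    (((((h1.const_mul (-g ^ 2)).div_const 6).add
      (((h3.div_const 6).sub (h4.div_const 24)).const_mul Qt)).add
      ((((h2.div_const 4).sub (h3.div_const 6)).add (h4.div_const 24)).const_mul (g ^ 2))).const_mul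
        (η ^ 2))
  have b := a.add ((((((h4.div_const 12).sub (h5.div_const 40)).const_mul Q1).sub
    (((h4.div_const 24).sub (h5.div_const 40)).const_mul (g * g')))).const_mul (η ^ 3))
  refine (b.congr_deriv ?_)
  rw [pp1]
  push_cast
  ring

theorem hasDerivAt_pp1 (g g' Qt Q1 : ℂ) (η s : ℂ) :
    HasDerivAt (pp1 g g' Qt Q1 η) (pp2 g g' Qt Q1 η s) s := by
  have h1 := hasDerivAt_id s
  have h2 := hasDerivAt_pw 1 s
  have h3 := hasDerivAt_pw 2 s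
  have h4 := hasDerivAt_pw 3 s
  have a := (h1.const_sub 1).add
    (((((h2.div_const 2).sub (h3.div_const 6)).const_mul Qt).const_add (-g ^ 2 / 6)).add
      ((((h1.div_const 2).sub (h2.div_const 2)).add (h3.div_const 6)).const_mul (g ^ 2)) |>.const_mul
        (η ^ 2))
  have b := a.add ((((((h3.div_const 3).sub (h4.div_const 8)).const_mul Q1).sub
    (((h3.div_const 6).sub (h4.div_const 8)).const_mul (g * g')))).const_mul (η ^ 3))
  refine (b.congr_deriv ?_)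
  rw [pp2]
  push_cast
  ring

/-- the scaled incidence function to order 4 -/
theorem Y_exp (T : Bx Φ q Q c V A B M) {θ : ℂ} (hθ : θ ∈ V) :
    UO 4 (fun η s => Y Φ q c (θ, η) s -
      pp (deriv Φ θ) (deriv (deriv Φ) θ) (Q θ) (deriv Q θ) η s) := by
  set g := deriv Φ θ with hg
  set g' := deriv (deriv Φ) θ with hg'
  set Qt := Q θ with hQt
  set Q1 := deriv Q θ with hQ1
  have hAd := Ad_ev T hθ
  have hΦ := (T.crv θ hθ).aΦ
  have hQ := T.aQ θ hθ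
  -- `η s`
  have uηs : UO 1 (fun η s => η * s) := (UO.eta.mul UO.s).mono (by norm_num)
  -- `Q`
  have rQ : UO 2 (fun η s => Q (θ + η * s) - Qt - Q1 * (η * s)) :=
    (UO.comp (n := 1) (k := 2) le_rfl (tay2 hQ) uηs)
  have uQ : UO 0 (fun η s => Q (θ + η * s)) := by
    have h1 := ((rQ.mono (m := 0) (by norm_num)).add (UO.const Qt)).add
      ((uηs.cmul Q1).mono (m := 0) (by norm_num))
    exact h1.congr (Eventually.of_forall fun η s hs => by ring)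
  -- the angle
  set r : ℂ → ℂ → ℂ := fun η s => -(Φ (θ + η * s) - Φ θ - g * (η * s) - g' * (η * s) ^ 2 / 2) with hr
  have ur : UO 3 r := (UO.comp (n := 1) (k := 3) le_rfl (tay3 hΦ) uηs).neg
  set a0 : ℂ → ℂ → ℂ := fun η s => g * η * (1 - s) - g' * (η * s) ^ 2 / 2 with ha0
  have ua0 : UO 1 a0 := by
    have h1 : UO 1 (fun η s => g * (η * 1 - η * s)) :=
      ((UO.eta.mul (UO.const 1)).mono (by norm_num) |>.sub uηs).cmul g
    have h2 : UO 1 (fun η s => (g' / 2) * ((η * s) * (η * s))) :=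
      ((uηs.mul uηs).mono (m := 1) (by norm_num)).cmul (g' / 2)
    exact (h1.sub h2).congr (Eventually.of_forall fun η s hs => by rw [ha0]; ring)
  set a : ℂ → ℂ → ℂ := fun η s => aL Φ 1 (θ, η) - Φ (θ + η * s) with ha
  have ea : ∀ η s, a η s = a0 η s + r η s := by
    intro η s
    rw [ha, ha0, hr]
    simp only [aL, ← hg]
    ring
  have ua : UO 1 a := (ua0.add (ur.mono (m := 1) (by norm_num))).congr
    (Eventually.of_forall fun η s hs => ea η s)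
  have uC : UO 4 (fun η s => Complex.cos (a η s) - 1 + (a η s) ^ 2 / 2) :=
    UO.comp (n := 1) (k := 4) le_rfl cos_O ua
  -- `Y` is bounded
  have uY : UO 0 (fun η s => Y Φ q c (θ, η) s) := by
    refine ⟨24, by norm_num, ?_⟩
    filter_upwards [hAd, ne_ev] with η h1 h2 s hs
    rw [pow_zero, mul_one]
    exact Y_bd T h1 h2 hs
  -- derivatives
  have hY1 : ∀ᶠ η in 𝓝[≠] (0 : ℂ), ∀ s : ℂ, ‖s‖ ≤ 3 →
      HasDerivAt (Y Φ q c (θ, η)) (Y1 Φ q c (θ, η) s) s := by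
    filter_upwards [hAd, ne_ev] with η h1 h2 s hs
    exact hasDerivAt_Y T h1 h2 hs
  have hY2 : ∀ᶠ η in 𝓝[≠] (0 : ℂ), ∀ s : ℂ, ‖s‖ ≤ 3 →
      HasDerivAt (Y1 Φ q c (θ, η)) (Y2 Φ q Q c (θ, η) s) s := by
    filter_upwards [hAd, ne_ev] with η h1 h2 s hs
    exact hasDerivAt_Y1 T h1 h2 hs
  have hsnc : UO 4 (fun η _ => NZ.snc (g * η) - 1 + (g * η) ^ 2 / 6) :=
    UO.comp (n := 1) (k := 4) le_rfl snc_O (UO.eta.cmul g)
  -- first comparison
  have c1 : UO 2 (fun η s => Y Φ q c (θ, η) s - (s - s ^ 2 / 2)) := by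
    refine UO.int2 (f1 := fun η s => Y1 Φ q c (θ, η) s - (1 - s))
      (f2 := fun η s => Y2 Φ q Q c (θ, η) s + 1) ?_ ?_ ?_ ?_ ?_
    · filter_upwards [hY1] with η h1 s hs
      have h2 := (hasDerivAt_id s).sub ((hasDerivAt_pw 1 s).div_const 2)
      refine ((h1 s hs).sub h2).congr_deriv ?_
      push_cast
      ring
    · filter_upwards [hY2] with η h1 s hs
      have h2 := (hasDerivAt_id s).const_sub 1
      refine ((h1 s hs).sub h2).congr_deriv ?_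
      ring
    · refine Eventually.of_forall fun η => ?_
      simp only [Y_zero]
      ring
    · have h1 : UO 2 (fun η _ => (NZ.snc (g * η) - 1 + (g * η) ^ 2 / 6) -
          (g ^ 2 / 6) * (η ^ 2)) :=
        (hsnc.mono (m := 2) (by norm_num)).sub ((UO.etan 2).cmul (g ^ 2 / 6))
      refine h1.congr ?_
      filter_upwards [hAd, ne_ev] with η h1 h2 s hs
      rw [Y1_zero T h1 h2]
      simp only [← hg]
      ring
    · have h1 : UO 2 (fun η s => η ^ 2 * Q (θ + η * s) * Y Φ q c (θ, η) s -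
          ((Complex.cos (a η s) - 1 + (a η s) ^ 2 / 2) - (1 / 2) * (a η s * a η s))) :=
        ((((UO.etan 2).mul uQ).mul uY).mono (m := 2) (by norm_num)).sub
          ((uC.mono (m := 2) (by norm_num)).sub (((ua.mul ua).mono (m := 2) (by norm_num)).cmul _))
      refine h1.congr (Eventually.of_forall fun η s hs => ?_)
      rw [Y2, ha]
      ring
  -- second comparison
  refine UO.int2 (f1 := fun η s => Y1 Φ q c (θ, η) s - pp1 g g' Qt Q1 η s)
      (f2 := fun η s => Y2 Φ q Q c (θ, η) s - pp2 g g' Qt Q1 η s) ?_ ?_ ?_ ?_ ?_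
  · filter_upwards [hY1] with η h1 s hs
    exact (h1 s hs).sub (hasDerivAt_pp g g' Qt Q1 η s)
  · filter_upwards [hY2] with η h1 s hs
    exact (h1 s hs).sub (hasDerivAt_pp1 g g' Qt Q1 η s)
  · refine Eventually.of_forall fun η => ?_
    simp only [Y_zero, pp, P2, P3]
    ring
  · refine hsnc.congr ?_
    filter_upwards [hAd, ne_ev] with η h1 h2 s hs
    rw [Y1_zero T h1 h2]
    simp only [← hg, pp1]
    ring
  · have t1 : UO 4 (fun η s => η ^ 2 * (Q (θ + η * s) - Qt - Q1 * (η * s)) * Y Φ q c (θ, η) s) :=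
      (((UO.etan 2).mul rQ).mul uY).mono (by norm_num)
    have t2 : UO 4 (fun η s => η ^ 2 * (Qt + Q1 * (η * s)) *
        (Y Φ q c (θ, η) s - (s - s ^ 2 / 2))) := by
      have h1 : UO 0 (fun η s => Qt + Q1 * (η * s)) :=
        (UO.const Qt).add ((uηs.cmul Q1).mono (m := 0) (by norm_num))
      exact (((UO.etan 2).mul h1).mul c1).mono (by norm_num)
    have t3 : UO 4 (fun η s => a0 η s * r η s) := (ua0.mul ur).mono (by norm_num)
    have t4 : UO 4 (fun η s => (1 / 2) * (r η s * r η s)) :=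
      ((ur.mul ur).mono (m := 4) (by norm_num)).cmul _
    have t5 : UO 4 (fun η s => (g' ^ 2 / 8) * (η ^ 4 * s ^ 4)) :=
      (((UO.etan 4).mul (UO.spow 4)).mono (m := 4) (by norm_num)).cmul _
    have h := (((t1.add t2).sub uC).add t3).add (t4.add t5)
    refine h.congr (Eventually.of_forall fun η s hs => ?_)
    rw [Y2, pp2]
    simp only
    rw [← show a η s = aL Φ 1 (θ, η) - Φ (θ + η * s) from rfl, ea η s, ha0]
    ring

/-- **the next vertex to order 4** -/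
theorem Xr_exp (T : Bx Φ q Q c V A B M) {θ : ℂ} (hθ : θ ∈ V) :
    UO 4 (fun η _ => Xr Φ q c (θ, η) - 2 - η ^ 2 * (2 * Q θ / 3) -
      η ^ 3 * (8 / 15 * (deriv Q θ + deriv Φ θ * deriv (deriv Φ) θ / 4))) := by
  set g := deriv Φ θ with hg
  set g' := deriv (deriv Φ) θ with hg'
  set Qt := Q θ with hQt
  set Q1 := deriv Q θ with hQ1
  have hAd := Ad_ev T hθ
  have hB0 := T.B0 hθ
  have hM0 := T.M0 hθ
  set ξ : ℂ → ℂ → ℂ := fun η _ => Xr Φ q c (θ, η) - 2 with hξ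
  have uξ : UO 2 ξ := by
    refine ⟨333 * (B + M), by positivity, ?_⟩
    filter_upwards [hAd, ne_ev] with η h1 h2 s hs
    have h3 := (Xr_spec T h1 h2).2.2.1
    have e : H133.Tm.EE B M (θ, η) = (B + M) * ‖η‖ ^ 2 := rfl
    rw [e] at h3
    exact h3.trans (le_of_eq (by ring))
  -- `pp` at the root
  have upp : UO 4 (fun η _ => pp g g' Qt Q1 η (Xr Φ q c (θ, η))) := by
    obtain ⟨K, hK, h1⟩ := Y_exp T hθ
    refine ⟨K, hK, ?_⟩
    filter_upwards [h1, hAd, ne_ev] with η h1 h2 h3 s hs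
    obtain ⟨x1, x2, -, -⟩ := Xr_spec T h2 h3
    have h4 := h1 (Xr Φ q c (θ, η)) (near2 (x1.trans (by norm_num)))
    rw [x2, zero_sub, norm_neg] at h4
    exact h4
  have uξ0 : UO 0 ξ := uξ.mono (by norm_num)
  -- polynomials in `ξ`
  have uξn : ∀ n : ℕ, UO 0 (fun η s => ξ η s ^ n) := by
    intro n
    induction n with
    | zero => exact (UO.const 1).congr (Eventually.of_forall fun η s hs => by simp)
    | succ n ih => exact (ih.mul uξ0).congr (Eventually.of_forall fun η s hs => by ring)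
  -- the increments of `P2`, `P3`
  set D2 : ℂ → ℂ := fun x => -g ^ 2 / 6 + Qt * ((12 + 6 * x + x ^ 2) / 6 -
      (32 + 24 * x + 8 * x ^ 2 + x ^ 3) / 24) +
      g ^ 2 * ((4 + x) / 4 - (12 + 6 * x + x ^ 2) / 6 + (32 + 24 * x + 8 * x ^ 2 + x ^ 3) / 24) with hD2
  set D3 : ℂ → ℂ := fun x => Q1 * ((32 + 24 * x + 8 * x ^ 2 + x ^ 3) / 12 -
      (80 + 80 * x + 40 * x ^ 2 + 10 * x ^ 3 + x ^ 4) / 40) -
      g * g' * ((32 + 24 * x + 8 * x ^ 2 + x ^ 3) / 24 -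
      (80 + 80 * x + 40 * x ^ 2 + 10 * x ^ 3 + x ^ 4) / 40) with hD3
  have uD2 : UO 0 (fun η s => D2 (ξ η s)) := by
    have a0 := UO.const (-g ^ 2 / 6 + Qt * (12 / 6 - 32 / 24) + g ^ 2 * (4 / 4 - 12 / 6 + 32 / 24))
    have a1 := (uξn 1).cmul (Qt * (6 / 6 - 24 / 24) + g ^ 2 * (1 / 4 - 6 / 6 + 24 / 24))
    have a2 := (uξn 2).cmul (Qt * (1 / 6 - 8 / 24) + g ^ 2 * (-1 / 6 + 8 / 24))
    have a3 := (uξn 3).cmul (Qt * (-1 / 24) + g ^ 2 * (1 / 24))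
    exact (((a0.add a1).add a2).add a3).congr (Eventually.of_forall fun η s hs => by
      rw [hD2]; ring)
  have uD3 : UO 0 (fun η s => D3 (ξ η s)) := by
    have a0 := UO.const (Q1 * (32 / 12 - 80 / 40) - g * g' * (32 / 24 - 80 / 40))
    have a1 := (uξn 1).cmul (Q1 * (24 / 12 - 80 / 40) - g * g' * (24 / 24 - 80 / 40))
    have a2 := (uξn 2).cmul (Q1 * (8 / 12 - 40 / 40) - g * g' * (8 / 24 - 40 / 40))
    have a3 := (uξn 3).cmul (Q1 * (1 / 12 - 10 / 40) - g * g' * (1 / 24 - 10 / 40))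
    have a4 := (uξn 4).cmul (Q1 * (-1 / 40) - g * g' * (-1 / 40))
    exact ((((a0.add a1).add a2).add a3).add a4).congr (Eventually.of_forall fun η s hs => by
      rw [hD3]; ring)
  have t1 : UO 4 (fun η s => (1 / 2) * (ξ η s * ξ η s)) :=
    ((uξ.mul uξ).mono (m := 4) (by norm_num)).cmul _
  have t2 : UO 4 (fun η s => η ^ 2 * ξ η s * D2 (ξ η s)) :=
    (((UO.etan 2).mul uξ).mul uD2).mono (by norm_num)
  have t3 : UO 4 (fun η s => η ^ 3 * ξ η s * D3 (ξ η s)) :=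
    (((UO.etan 3).mul uξ).mul uD3).mono (by norm_num)
  have h := ((t2.add t3).sub t1).sub upp
  refine h.congr (Eventually.of_forall fun η s hs => ?_)
  rw [pp, P2, P3, hD2, hD3, hξ]
  simp only
  ring

/-- **the symmetrised next vertex to order 4** -/
theorem T1_sym (T : Bx Φ q Q c V A B M) {θ : ℂ} (hθ : θ ∈ V) :
    ∃ K : ℝ, 0 ≤ K ∧ ∀ᶠ η in 𝓝[≠] (0 : ℂ),
      ‖T1 Φ q c (θ, η) + T1 Φ q c (θ, -η) - 2 * θ -
        16 / 15 * (deriv Q θ + deriv Φ θ * deriv (deriv Φ) θ / 4) * η ^ 4‖ ≤ K * ‖η‖ ^ 5 := by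
  have h1 := Xr_exp T hθ
  have h2 := h1.comp_neg
  have h3 := (UO.eta.mul (h1.sub h2))
  obtain ⟨K, hK, h4⟩ := h3
  refine ⟨K, hK, ?_⟩
  filter_upwards [h4] with η h4
  have h5 := h4 0 (by simp)
  refine (le_of_eq ?_).trans h5
  congr 1
  rw [T1, T1]
  simp only
  ring

end Vale.Agent.P097.H710
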